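import Crest.Agent.H3.MM.Map

open MeasureTheory ProbabilityTheory Set Filter Topology
open scoped ENNReal unitInterval

namespace Crest.Agent.H3.MM

theorem exists_partition {X : Type*} [PseudoMetricSpace X] [SecondCountableTopology X] [Nonempty X]
    [MeasurableSpace X] [OpensMeasurableSpace X] {δ : ℝ} (hδ : 0 < δ) :
    ∃ (C : ℕ → Set X) (z : ℕ → X), (∀ n, MeasurableSet (C n)) ∧ Pairwise (Function.onFun Disjoint C) ∧
      (⋃ n, C n) = univ ∧ ∀ n, ∀ x ∈ C n, dist x (z n) < δ := by
  refine ⟨disjointed fun n => Metric.ball (TopologicalSpace.denseSeq X n) δ,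
    TopologicalSpace.denseSeq X, ?_, disjoint_disjointed _, ?_, ?_⟩
  · intro n
    exact MeasurableSet.disjointed (fun n => measurableSet_ball) n
  · rw [iUnion_disjointed]
    ext x
    simp only [mem_iUnion, Metric.mem_ball, mem_univ, iff_true]
    obtain ⟨n, hn⟩ := (TopologicalSpace.denseRange_denseSeq X).exists_dist_lt x hδ
    exact ⟨n, hn⟩
  · intro n x hx
    exact (disjointed_subset _ n hx : x ∈ Metric.ball _ δ)

theorem exists_map_approx {X Y : Type*} [MetricSpace X] [SecondCountableTopology X] [Nonempty X]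
    [MeasurableSpace X] [BorelSpace X] [StandardBorelSpace X]
    [MeasurableSpace Y] [StandardBorelSpace Y] [Nonempty Y]
    (μ : Measure X) [IsFiniteMeasure μ] [NullSingletonClass μ] (π : Measure (X × Y))
    (hπ : π.map Prod.fst = μ) (c : X → Y → ℝ≥0∞) (hc : Measurable fun p : X × Y => c p.1 p.2)
    (D D' : Set (X × Y)) (hD : π Dᶜ = 0) (hD' : MeasurableSet D')
    (h1 : ∀ ε : ℝ≥0∞, 0 < ε → ∃ δ > 0, ∀ x x' : X, ∀ y : Y, dist x x' < δ → (x, y) ∈ D →
      (x', y) ∈ D' ∧ c x' y ≤ c x y + ε)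
    (h2 : ∀ ε : ℝ≥0∞, 0 < ε → ∃ δ > 0, ∀ x x' : X, ∀ y : Y, dist x x' < δ → (x, y) ∈ D' →
      c x' y ≤ c x y + ε)
    {ε : ℝ≥0∞} (hε : 0 < ε) :
    ∃ T : X → Y, Measurable T ∧ μ.map T = π.map Prod.snd ∧
      ∫⁻ x, c x (T x) ∂μ ≤ ∫⁻ p, c p.1 p.2 ∂π + 2 * ε * μ univ := by
  obtain ⟨δ₁, hδ₁, h1⟩ := h1 ε hε
  obtain ⟨δ₂, hδ₂, h2⟩ := h2 ε hε
  obtain ⟨C, z, hCm, hCd, hCu, hCz⟩ := exists_partition (X := X) (lt_min hδ₁ hδ₂)
  have hmass : ∀ n, μ.restrict (C n) univ = (π.restrict (C n ×ˢ univ)).map Prod.snd univ := by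
    intro n
    rw [Measure.map_apply measurable_snd MeasurableSet.univ, preimage_univ, Measure.restrict_apply_univ,
      Measure.restrict_apply_univ, ← hπ, Measure.map_apply measurable_fst (hCm n)]
    congr 1
    ext p; simp
  choose T hT hT2 using fun n => exists_map_of_mass (μ.restrict (C n))
    ((π.restrict (C n ×ˢ univ)).map Prod.snd) (hmass n)
  obtain ⟨S, hS, hS2⟩ := exists_measurable_piecewise C hCm T hT (by
    intro i j hij x hx
    exact absurd hx (by
      rw [(hCd hij).inter_eq]; exact notMem_empty x))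
  have hμsum : μ = Measure.sum fun n => μ.restrict (C n) := by
    rw [← Measure.restrict_iUnion hCd hCm, hCu, Measure.restrict_univ]
  have hπsum : π = Measure.sum fun n => π.restrict (C n ×ˢ univ) := by
    rw [← Measure.restrict_iUnion, ← iUnion_prod_const, hCu, univ_prod_univ, Measure.restrict_univ]
    · intro i j hij
      exact Disjoint.set_prod_left (hCd hij) _ _
    · exact fun n => (hCm n).prod MeasurableSet.univ
  have hSn : ∀ n, (μ.restrict (C n)).map S = (π.restrict (C n ×ˢ univ)).map Prod.snd := by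
    intro n
    rw [← hT2 n]
    refine Measure.map_congr ?_
    filter_upwards [ae_restrict_mem (hCm n)] with x hx
    exact hS2 n hx
  refine ⟨S, hS, ?_, ?_⟩
  · conv_lhs => rw [hμsum]
    conv_rhs => rw [hπsum]
    rw [Measure.map_sum hS.aemeasurable, Measure.map_sum measurable_snd.aemeasurable]
    congr 1
    ext1 n
    exact hSn n
  · have hcs : ∀ x₀ : X, Measurable fun y => c x₀ y := fun x₀ => hc.comp (measurable_const.prodMk measurable_id)
    have hn : ∀ n, ∫⁻ x, c x (S x) ∂(μ.restrict (C n)) ≤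
        ∫⁻ p, c p.1 p.2 ∂(π.restrict (C n ×ˢ univ)) + 2 * ε * μ (C n) := by
      intro n
      have hDn : ∀ᵐ x ∂(μ.restrict (C n)), (z n, S x) ∈ D' := by
        have hm : MeasurableSet {y : Y | (z n, y) ∈ D'} := measurable_prodMk_left hD'
        have : ∀ᵐ y ∂((μ.restrict (C n)).map S), (z n, y) ∈ D' := by
          rw [hSn n]
          rw [ae_map_iff measurable_snd.aemeasurable hm, ae_restrict_iff' ((hCm n).prod MeasurableSet.univ)]
          have : ∀ᵐ p ∂π, p ∈ D := by
            rw [ae_iff]; exact hD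
          filter_upwards [this] with p hp hpC
          exact (h1 p.1 (z n) p.2 (lt_of_lt_of_le (hCz n p.1 hpC.1) (min_le_left _ _)) hp).1
        exact ae_of_ae_map hS.aemeasurable this
      have hπD : ∀ᵐ p ∂(π.restrict (C n ×ˢ univ)), c (z n) p.2 ≤ c p.1 p.2 + ε := by
        rw [ae_restrict_iff' ((hCm n).prod MeasurableSet.univ)]
        have : ∀ᵐ p ∂π, p ∈ D := by
          rw [ae_iff]; exact hD
        filter_upwards [this] with p hp hpC
        exact (h1 p.1 (z n) p.2 (lt_of_lt_of_le (hCz n p.1 hpC.1) (min_le_left _ _)) hp).2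
      have hm2 : (π.restrict (C n ×ˢ univ)) univ = μ (C n) := by
        rw [Measure.restrict_apply_univ, ← hπ, Measure.map_apply measurable_fst (hCm n)]
        congr 1
        ext p; simp
      calc ∫⁻ x, c x (S x) ∂(μ.restrict (C n))
          ≤ ∫⁻ x, (c (z n) (S x) + ε) ∂(μ.restrict (C n)) := by
            refine lintegral_mono_ae ?_
            filter_upwards [hDn, ae_restrict_mem (hCm n)] with x hx hxC
            refine h2 (z n) x (S x) ?_ hx
            rw [dist_comm]
            exact lt_of_lt_of_le (hCz n x hxC) (min_le_right _ _)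
        _ = ∫⁻ x, c (z n) (S x) ∂(μ.restrict (C n)) + ε * μ (C n) := by
            rw [lintegral_add_right _ measurable_const, lintegral_const, Measure.restrict_apply_univ]
        _ = ∫⁻ y, c (z n) y ∂((μ.restrict (C n)).map S) + ε * μ (C n) := by
            rw [lintegral_map (hcs _) hS]
        _ = ∫⁻ p, c (z n) p.2 ∂(π.restrict (C n ×ˢ univ)) + ε * μ (C n) := by
            rw [hSn n, lintegral_map (hcs _) measurable_snd]
        _ ≤ ∫⁻ p, (c p.1 p.2 + ε) ∂(π.restrict (C n ×ˢ univ)) + ε * μ (C n) := by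
            gcongr 1
            exact lintegral_mono_ae hπD
        _ = ∫⁻ p, c p.1 p.2 ∂(π.restrict (C n ×ˢ univ)) + 2 * ε * μ (C n) := by
            rw [lintegral_add_right _ measurable_const, lintegral_const, hm2, add_assoc]
            congr 1
            ring
    calc ∫⁻ x, c x (S x) ∂μ = ∑' n, ∫⁻ x, c x (S x) ∂(μ.restrict (C n)) := by
          conv_lhs => rw [hμsum]
          rw [lintegral_sum_measure]
      _ ≤ ∑' n, (∫⁻ p, c p.1 p.2 ∂(π.restrict (C n ×ˢ univ)) + 2 * ε * μ (C n)) :=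
          ENNReal.tsum_le_tsum hn
      _ = ∑' n, (∫⁻ p, c p.1 p.2 ∂(π.restrict (C n ×ˢ univ))) + ∑' n, 2 * ε * μ (C n) :=
          ENNReal.tsum_add
      _ = ∫⁻ p, c p.1 p.2 ∂π + 2 * ε * μ univ := by
          rw [ENNReal.tsum_mul_left, ← measure_iUnion hCd hCm, hCu]
          congr 1
          conv_rhs => rw [hπsum]
          rw [lintegral_sum_measure]

end Crest.Agent.H3.MM
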