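import Crest.Agent.H3.MM.Data

open Set Filter Topology MeasureTheory
open scoped ContDiff RealInnerProductSpace ENNReal
open Crest.AnalysisR.OT

namespace Crest.Agent.H3.MM

variable {E : Type*} [NormedAddCommGroup E] [InnerProductSpace ℝ E]

theorem good_of_lt {s : ℝ} (hs : 0 < s) {P : Bool × Bool → E → E} {ε : ℝ} {u : E → ℝ} {x y z : E}
    (h : x ≠ y → x ≠ z → y ≠ z → u x + u y + u z < cR s x y z) : Good s P ε u x y z := by
  rcases tripleCost_cases hs x y z with h1 | ⟨h1, h2, h3, h4⟩
  · exact Or.inl h1
  · exact Or.inr ⟨h4, Or.inl (h h1 h2 h3)⟩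

variable [FiniteDimensional ℝ E] [MeasurableSpace E] [BorelSpace E]

theorem exists_data {s : ℝ} (hs : 0 < s) (a : Bool → E) (ha : ∀ i, ‖a i‖ = 1)
    (ho : ⟪a false, a true⟫ = 0) : Nonempty (Data s E) := by
  classical
  obtain ⟨hδ0, hδ1, hnum⟩ := numeric s hs
  set δ := ((Real.sqrt 2) ^ (-s) - 2 ^ (-s)) / 4 with hδ
  have hpk := fun i => pack1 (E := E) hs (ha i) hδ0
  choose f g fi gi Wg hfm hgm hev using hpk
  obtain ⟨η, hη⟩ := ((hev false).and ((hev true).and (hnum.and
    (Ioo_mem_nhdsGT (show (0:ℝ) < 1 / 16 by norm_num))))).exists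
  obtain ⟨⟨hW0, hU0, hWb0, hε0⟩, ⟨hW1, hU1, hWb1, hε1⟩, hnumη, hη0, hη1⟩ := hη
  obtain ⟨ε, hε⟩ := (hε0.and (hε1.and ((numeric2 s hs (3 * MM s)).and (Ioo_mem_nhdsGT hη0)))).exists
  obtain ⟨h0, h1, hnumε, hε00, hεη⟩ := hε
  -- uniform in i
  have hWc : ∀ i, ContinuousOn (Wg i) (Metric.closedBall (-a i) η) := by
    intro i; cases i; exacts [hW0, hW1]
  have hUb : ∀ i, ∀ y ∈ Metric.closedBall (a i) η, Ua s (a i) y ≤ -1 + δ ∧ -2 ≤ Ua s (a i) y := by
    intro i; cases i; exacts [hU0, hU1]
  have hWb : ∀ i, ∀ y ∈ Metric.closedBall (-a i) η, Wg i y ≤ -1 + δ ∧ -2 ≤ Wg i y := by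
    intro i; cases i; exacts [hWb0, hWb1]
  have hpk : ∀ i, (∀ x ∈ Metric.closedBall 0 ε, ChartAt (f i) (fi i) x) ∧
      (∀ x ∈ Metric.closedBall 0 ε, ChartAt (g i) (gi i) x) ∧
      (∀ x ∈ Metric.closedBall 0 ε, ‖f i x - a i‖ ≤ η ∧ ‖g i x + a i‖ ≤ η) ∧
      (∀ b ∈ Metric.closedBall 0 ε, U0 s b + Ua s (a i) (f i b) + Wg i (g i b) = cR s b (f i b) (g i b)) ∧
      (∀ b ∈ Metric.closedBall (0:E) ε, ∀ x y : E, ‖x‖ ≤ η → ‖y - a i‖ ≤ η →
        U0 s x + Ua s (a i) y + Wg i (g i b) ≤ cR s x y (g i b) ∧
        (U0 s x + Ua s (a i) y + Wg i (g i b) = cR s x y (g i b) → x = b ∧ y = f i b)) := by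
    intro i; cases i; exacts [h0, h1]
  clear hW0 hU0 hWb0 hε0 hW1 hU1 hWb1 hε1 h0 h1 hev
  let P : Bool × Bool → E → E := fun k => if k.2 then g k.1 else f k.1
  let Pi : Bool × Bool → E → E := fun k => if k.2 then gi k.1 else fi k.1
  let W : Bool × Bool → E → ℝ := fun k => if k.2 then Wg k.1 else Ua s (a k.1)
  have hWcont : ∀ k, ContinuousOn (W k) (Metric.closedBall (ctr a k) η) := by
    intro k
    obtain ⟨i, j⟩ := k
    cases j
    · simp only [W, ctr, Bool.false_eq_true, if_false]
      unfold Ua; fun_prop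
    · simp only [W, ctr, if_true]; exact hWc i
  have hWbd : ∀ k, ∀ y ∈ Metric.closedBall (ctr a k) η, W k y ≤ -1 + δ ∧ -2 ≤ W k y := by
    intro k
    obtain ⟨i, j⟩ := k
    cases j
    · simp only [W, ctr, Bool.false_eq_true, if_false]; exact hUb i
    · simp only [W, ctr, if_true]; exact hWb i
  have hPn : ∀ k, ∀ b ∈ Metric.closedBall (0:E) ε, P k b ∈ Metric.closedBall (ctr a k) η := by
    intro k b hb
    obtain ⟨i, j⟩ := k
    rw [Metric.mem_closedBall, dist_eq_norm]
    cases j
    · simp only [P, ctr, Bool.false_eq_true, if_false]; exact ((hpk i).2.2.1 b hb).1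
    · simp only [P, ctr, if_true, sub_neg_eq_add]; exact ((hpk i).2.2.1 b hb).2
  have hPn' : ∀ k, ∀ b ∈ Metric.closedBall (0:E) ε, ‖P k b - ctr a k‖ ≤ η := by
    intro k b hb
    have := hPn k b hb
    rwa [Metric.mem_closedBall, dist_eq_norm] at this
  have hMM : 4 < MM s := by
    have : (0:ℝ) < 2 ^ (-s) := Real.rpow_pos_of_pos (by norm_num) _
    unfold MM; linarith
  have hKc : 0 < Kc s := by linarith [Kc_ge hs, Lam_pos hs]
  -- the potential
  let u : E → ℝ := fun x => (Metric.closedBall (0:E) η).indicator (U0 s) x +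
    ∑ k : Bool × Bool, (Metric.closedBall (ctr a k) η).indicator (W k) x
  have hB : ∀ x ∈ Metric.closedBall (0:E) ε, ‖x‖ ≤ η := by
    intro x hx
    exact (mem_closedBall_zero_iff.1 hx).trans hεη.le
  have hu0 : ∀ x, ‖x‖ ≤ η → u x = U0 s x := by
    intro x hx
    have hx' : x ∈ Metric.closedBall (0:E) η := mem_closedBall_zero_iff.2 hx
    simp only [u, indicator_of_mem hx']
    rw [Finset.sum_eq_zero, add_zero]
    intro k _
    apply indicator_of_notMem
    intro hk
    rw [Metric.mem_closedBall, dist_eq_norm] at hk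
    have h1 := norm_sub_norm_le (ctr a k) x
    rw [norm_ctr ha, norm_sub_rev] at h1
    linarith
  have huk : ∀ k x, x ∈ Metric.closedBall (ctr a k) η → u x = W k x := by
    intro k x hk
    have hk' := hk
    rw [Metric.mem_closedBall, dist_eq_norm] at hk'
    have hx0 : x ∉ Metric.closedBall (0:E) η := by
      intro h
      rw [mem_closedBall_zero_iff] at h
      have h1 := norm_sub_norm_le (ctr a k) x
      rw [norm_ctr ha, norm_sub_rev] at h1
      linarith
    simp only [u, indicator_of_notMem hx0, zero_add]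
    rw [Finset.sum_eq_single k, indicator_of_mem hk]
    · intro l _ hlk
      apply indicator_of_notMem
      intro hl
      rw [Metric.mem_closedBall, dist_eq_norm] at hl
      have h1 := ctr_dist_ge ha ho hlk
      have h2 : ‖ctr a l - ctr a k‖ ≤ ‖x - ctr a k‖ + ‖x - ctr a l‖ := by
        have : ctr a l - ctr a k = (x - ctr a k) - (x - ctr a l) := by abel
        rw [this]; exact norm_sub_le _ _
      linarith
    · intro h; exact absurd (Finset.mem_univ _) h
  have huP : ∀ k, ∀ b ∈ Metric.closedBall (0:E) ε, u (P k b) = W k (P k b) := fun k b hb =>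
    huk k _ (hPn k b hb)
  have huP' : ∀ k, ∀ b ∈ Metric.closedBall (0:E) ε, u (P k b) ≤ -1 + δ := fun k b hb => by
    rw [huP k b hb]; exact (hWbd k _ (hPn k b hb)).1
  have huB : ∀ x ∈ Metric.closedBall (0:E) ε, u x ≤ MM s := by
    intro x hx
    rw [hu0 x (hB x hx)]
    unfold U0
    have : 0 ≤ Kc s / 2 * ‖x‖ ^ 2 := by positivity
    linarith
  have hd0 : ∀ k, ∀ b ∈ Metric.closedBall (0:E) ε, ∀ b' ∈ Metric.closedBall (0:E) ε, 1 / 2 ≤ ‖b' - P k b‖ := by
    intro k b hb b' hb'
    have h1 := hPn' k b hb
    have h2 := hB b' hb'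
    have h3 := norm_ctr ha k
    have h4 : ‖ctr a k‖ ≤ ‖b' - P k b‖ + (‖b'‖ + ‖P k b - ctr a k‖) := by
      have : ctr a k = -(b' - P k b) + (b' - (P k b - ctr a k)) := by abel
      calc ‖ctr a k‖ = ‖-(b' - P k b) + (b' - (P k b - ctr a k))‖ := by rw [← this]
        _ ≤ _ := by
          refine (norm_add_le _ _).trans ?_
          rw [norm_neg]
          gcongr
          exact norm_sub_le _ _
    linarith
  have hd1 : ∀ k l, k ≠ l → ∀ b ∈ Metric.closedBall (0:E) ε, ∀ b' ∈ Metric.closedBall (0:E) ε,
      1 / 2 ≤ ‖P k b - P l b'‖ := by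
    intro k l hkl b hb b' hb'
    have h1 := hPn' k b hb
    have h2 := hPn' l b' hb'
    have h3 := ctr_dist_ge ha ho hkl
    have h4 : ‖ctr a k - ctr a l‖ ≤ ‖P k b - P l b'‖ + (‖P k b - ctr a k‖ + ‖P l b' - ctr a l‖) := by
      have : ctr a k - ctr a l = (P k b - P l b') + (-(P k b - ctr a k) + (P l b' - ctr a l)) := by abel
      rw [this]
      refine (norm_add_le _ _).trans ?_
      gcongr
      refine (norm_add_le _ _).trans ?_
      rw [norm_neg]
    linarith
  -- the main inequality
  have hone : ∀ x ∈ Metric.closedBall (0:E) ε, ∀ k l, ∀ b ∈ Metric.closedBall (0:E) ε,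
      ∀ b' ∈ Metric.closedBall (0:E) ε, Good s P ε u x (P k b) (P l b') := by
    intro x hx k l b hb b' hb'
    by_cases hl : l = (k.1, !k.2)
    · obtain ⟨i, j⟩ := k
      subst hl
      cases j
      · simp only [Bool.not_false]
        have h := (hpk i).2.2.2.2 b' hb' x (f i b) (hB x hx) ((hpk i).2.2.1 b hb).1
        have e1 : u x = U0 s x := hu0 x (hB x hx)
        have e2 : u (P (i, false) b) = Ua s (a i) (f i b) := huP (i, false) b hb
        have e3 : u (P (i, true) b') = Wg i (g i b') := huP (i, true) b' hb'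
        have n1 : x ≠ P (i, false) b := by
          intro h; have := hd0 (i, false) b hb x hx; rw [← h, sub_self, norm_zero] at this; linarith
        have n2 : x ≠ P (i, true) b' := by
          intro h; have := hd0 (i, true) b' hb' x hx; rw [← h, sub_self, norm_zero] at this; linarith
        have n3 : P (i, false) b ≠ P (i, true) b' := by
          intro h
          have := hd1 (i, false) (i, true) (by simp) b hb b' hb'
          rw [h, sub_self, norm_zero] at this; linarith
        refine Or.inr ⟨tripleCost_of_ne s n1 n2 n3, ?_⟩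
        rw [e1, e2, e3]
        rcases h.1.lt_or_eq with h3 | h3
        · exact Or.inl h3
        · refine Or.inr ⟨h3, i, b', hb', Or.inl ⟨(h.2 h3).1, (h.2 h3).2, rfl⟩⟩
      · simp only [Bool.not_true]
        refine Good.swap23 ?_
        have h := (hpk i).2.2.2.2 b hb x (f i b') (hB x hx) ((hpk i).2.2.1 b' hb').1
        have e1 : u x = U0 s x := hu0 x (hB x hx)
        have e2 : u (P (i, false) b') = Ua s (a i) (f i b') := huP (i, false) b' hb'
        have e3 : u (P (i, true) b) = Wg i (g i b) := huP (i, true) b hb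
        have n1 : x ≠ P (i, false) b' := by
          intro h; have := hd0 (i, false) b' hb' x hx; rw [← h, sub_self, norm_zero] at this; linarith
        have n2 : x ≠ P (i, true) b := by
          intro h; have := hd0 (i, true) b hb x hx; rw [← h, sub_self, norm_zero] at this; linarith
        have n3 : P (i, false) b' ≠ P (i, true) b := by
          intro h
          have := hd1 (i, false) (i, true) (by simp) b' hb' b hb
          rw [h, sub_self, norm_zero] at this; linarith
        refine Or.inr ⟨tripleCost_of_ne s n1 n2 n3, ?_⟩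
        rw [e1, e2, e3]
        rcases h.1.lt_or_eq with h3 | h3
        · exact Or.inl h3
        · refine Or.inr ⟨h3, i, b, hb, Or.inl ⟨(h.2 h3).1, (h.2 h3).2, rfl⟩⟩
    · refine good_of_lt hs fun n1 n2 n3 => ?_
      have c1 := phi_lower hs (sub_ne_zero.2 n1) (R := 1 + 2 * η) (by
        have h1 := hPn' k b hb
        have h2 := hB x hx
        have h3 := norm_ctr ha k
        have : x - P k b = x - (P k b - ctr a k) - ctr a k := by abel
        rw [this]
        refine (norm_sub_le _ _).trans ?_
        have := norm_sub_le x (P k b - ctr a k)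
        linarith)
      have c2 := phi_lower hs (sub_ne_zero.2 n2) (R := 1 + 2 * η) (by
        have h1 := hPn' l b' hb'
        have h2 := hB x hx
        have h3 := norm_ctr ha l
        have : x - P l b' = x - (P l b' - ctr a l) - ctr a l := by abel
        rw [this]
        refine (norm_sub_le _ _).trans ?_
        have := norm_sub_le x (P l b' - ctr a l)
        linarith)
      have c3 := phi_lower hs (sub_ne_zero.2 n3) (R := Real.sqrt 2 + 2 * η) (by
        have h1 := hPn' k b hb
        have h2 := hPn' l b' hb'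
        have h3 := ctr_dist_le ha ho hl
        have : P k b - P l b' = (ctr a k - ctr a l) + ((P k b - ctr a k) - (P l b' - ctr a l)) := by abel
        rw [this]
        refine (norm_add_le _ _).trans ?_
        have := norm_sub_le (P k b - ctr a k) (P l b' - ctr a l)
        linarith)
      have u1 := huB x hx
      have u2 := huP' k b hb
      have u3 := huP' l b' hb'
      unfold cR
      linarith
  have htwo : ∀ x ∈ Metric.closedBall (0:E) ε, ∀ y ∈ Metric.closedBall (0:E) ε, ∀ z : E, u z ≤ MM s →
      Good s P ε u x y z := by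
    intro x hx y hy z hz
    refine good_of_lt hs fun n1 n2 n3 => ?_
    have c1 := phi_lower hs (sub_ne_zero.2 n1) (R := 2 * ε) (by
      have h1 := mem_closedBall_zero_iff.1 hx
      have h2 := mem_closedBall_zero_iff.1 hy
      refine (norm_sub_le _ _).trans ?_
      linarith)
    have c2 := phi_nonneg s (x - z)
    have c3 := phi_nonneg s (y - z)
    have u1 := huB x hx
    have u2 := huB y hy
    unfold cR
    linarith
  have huS : ∀ z, (z ∈ Metric.closedBall (0:E) ε ∨ ∃ k, ∃ b ∈ Metric.closedBall (0:E) ε, z = P k b) →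
      u z ≤ MM s := by
    rintro z (hz | ⟨k, b, hb, rfl⟩)
    · exact huB z hz
    · exact (huP' k b hb).trans (by linarith)
  refine ⟨⟨P, Pi, ε, hε00, u, ?_, MM s + Kc s + 8, ?_, ?_, ?_, ?_, ?_, ?_, ?_, ?_, ?_⟩⟩
  · -- measurability
    have m0 : Measurable ((Metric.closedBall (0:E) η).indicator (U0 s)) := by
      refine Measurable.indicator ?_ Metric.isClosed_closedBall.measurableSet
      have : Continuous (U0 s : E → ℝ) := by unfold U0; fun_prop
      exact this.measurable
    have mk : ∀ k, Measurable ((Metric.closedBall (ctr a k) η).indicator (W k)) := by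
      intro k
      rw [← piecewise_eq_indicator]
      exact ContinuousOn.measurable_piecewise (hWcont k) continuousOn_const
        Metric.isClosed_closedBall.measurableSet
    exact m0.add (Finset.measurable_sum _ fun k _ => mk k)
  · intro x
    have b0 : |(Metric.closedBall (0:E) η).indicator (U0 s) x| ≤ MM s + Kc s := by
      by_cases hx : x ∈ Metric.closedBall (0:E) η
      · rw [indicator_of_mem hx, U0]
        have hxn := mem_closedBall_zero_iff.1 hx
        have h1 : ‖x‖ ^ 2 ≤ 1 := by nlinarith [norm_nonneg x]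
        have h2 : 0 ≤ Kc s / 2 * ‖x‖ ^ 2 := by positivity
        have h3 : Kc s / 2 * ‖x‖ ^ 2 ≤ Kc s / 2 * 1 := by gcongr
        rw [abs_le]; constructor <;> linarith
      · rw [indicator_of_notMem hx, abs_zero]; linarith
    have bk : ∀ k, |(Metric.closedBall (ctr a k) η).indicator (W k) x| ≤ 2 := by
      intro k
      by_cases hx : x ∈ Metric.closedBall (ctr a k) η
      · rw [indicator_of_mem hx]
        have := hWbd k x hx
        rw [abs_le]; constructor <;> linarith
      · rw [indicator_of_notMem hx, abs_zero]; norm_num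
    have hsum : |∑ k : Bool × Bool, (Metric.closedBall (ctr a k) η).indicator (W k) x| ≤ 8 := by
      refine (Finset.abs_sum_le_sum_abs _ _).trans ?_
      refine (Finset.sum_le_sum fun k _ => bk k).trans ?_
      simp; norm_num
    exact (abs_add_le _ _).trans (by linarith)
  · intro k
    obtain ⟨i, j⟩ := k
    cases j
    · simp only [P, Bool.false_eq_true, if_false]; exact hfm i
    · simp only [P, if_true]; exact hgm i
  · intro k x hx
    obtain ⟨i, j⟩ := k
    cases j
    · simp only [P, Pi, Bool.false_eq_true, if_false]; exact (hpk i).1 x hx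
    · simp only [P, Pi, if_true]; exact (hpk i).2.1 x hx
  · intro k b hb b' hb' h
    have := hd0 k b hb b' hb'
    rw [h, sub_self, norm_zero] at this; linarith
  · intro k l hkl b hb b' hb' h
    have := hd1 k l hkl b hb b' hb'
    rw [h, sub_self, norm_zero] at this; linarith
  · intro k b hb
    exact hd0 k b hb b hb
  · intro i b hb
    exact hd1 (i, false) (i, true) (by simp) b hb b hb
  · intro i b hb
    have e1 : u b = U0 s b := hu0 b (hB b hb)
    have e2 : u (P (i, false) b) = Ua s (a i) (f i b) := huP (i, false) b hb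
    have e3 : u (P (i, true) b) = Wg i (g i b) := huP (i, true) b hb
    rw [e1, e2, e3]
    exact (hpk i).2.2.2.1 b hb
  · intro x y z hx hy hz
    have hux := huS x hx
    have huy := huS y hy
    have huz := huS z hz
    rcases hx with hx | ⟨k, b, hb, rfl⟩
    · rcases hy with hy | ⟨l, c, hc, rfl⟩
      · exact htwo x hx y hy z huz
      · rcases hz with hz | ⟨m, e, he, rfl⟩
        · exact (htwo x hx z hz _ huy).swap23
        · exact hone x hx l m c hc e he
    · rcases hy with hy | ⟨l, c, hc, rfl⟩
      · rcases hz with hz | ⟨m, e, he, rfl⟩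
        · exact (htwo y hy z hz _ hux).swap23.swap12
        · exact (hone y hy k m b hb e he).swap12
      · rcases hz with hz | ⟨m, e, he, rfl⟩
        · exact (hone z hz k l b hb c hc).swap12.swap23
        · refine good_of_lt hs fun n1 n2 n3 => ?_
          have u1 := huP' k b hb
          have u2 := huP' l c hc
          have u3 := huP' m e he
          have := cR_nonneg s (P k b) (P l c) (P m e)
          linarith

end Crest.Agent.H3.MM
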