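import Crest.Agent.H3.MM.Dens
import Crest.Prelude.Def_MultiMarginal

open Set Filter Topology MeasureTheory
open scoped ContDiff RealInnerProductSpace ENNReal
open Crest.AnalysisR.OT

namespace Crest.Agent.H3.MM

variable {E : Type*} [NormedAddCommGroup E] [InnerProductSpace ℝ E]

theorem pairCost_self {s : ℝ} (hs : 0 < s) (x : E) : pairCost s x x = ⊤ := by
  simp only [pairCost, sub_self, norm_zero, ENNReal.ofReal_zero]
  exact ENNReal.zero_rpow_of_neg (by linarith)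

theorem pairCost_of_ne (s : ℝ) {x y : E} (h : x ≠ y) : pairCost s x y = ENNReal.ofReal (phi s (x - y)) := by
  have : 0 < ‖x - y‖ := norm_pos_iff.2 (sub_ne_zero.2 h)
  rw [pairCost, phi, ENNReal.ofReal_rpow_of_pos this]

theorem pairCost_comm (s : ℝ) (x y : E) : pairCost s x y = pairCost s y x := by
  rw [pairCost, pairCost, norm_sub_rev]

theorem tripleCost_swap12 (s : ℝ) (x y z : E) : tripleCost s (x, y, z) = tripleCost s (y, x, z) := by
  simp only [tripleCost]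
  rw [pairCost_comm s x y, add_assoc, add_assoc, add_comm (pairCost s x z)]

theorem tripleCost_swap23 (s : ℝ) (x y z : E) : tripleCost s (x, y, z) = tripleCost s (x, z, y) := by
  simp only [tripleCost]
  rw [pairCost_comm s y z, add_comm (pairCost s x y)]

theorem phi_nonneg (s : ℝ) (x : E) : 0 ≤ phi s x := Real.rpow_nonneg (norm_nonneg _) _

theorem cR_nonneg (s : ℝ) (x y z : E) : 0 ≤ cR s x y z := by
  unfold cR
  have := phi_nonneg s (x - y)
  have := phi_nonneg s (x - z)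
  have := phi_nonneg s (y - z)
  positivity

theorem tripleCost_of_ne (s : ℝ) {x y z : E} (h1 : x ≠ y) (h2 : x ≠ z) (h3 : y ≠ z) :
    tripleCost s (x, y, z) = ENNReal.ofReal (cR s x y z) := by
  simp only [tripleCost, pairCost_of_ne s h1, pairCost_of_ne s h2, pairCost_of_ne s h3, cR]
  rw [ENNReal.ofReal_add (add_nonneg (phi_nonneg _ _) (phi_nonneg _ _)) (phi_nonneg _ _),
    ENNReal.ofReal_add (phi_nonneg _ _) (phi_nonneg _ _)]

theorem tripleCost_cases {s : ℝ} (hs : 0 < s) (x y z : E) : tripleCost s (x, y, z) = ⊤ ∨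
    (x ≠ y ∧ x ≠ z ∧ y ≠ z ∧ tripleCost s (x, y, z) = ENNReal.ofReal (cR s x y z)) := by
  by_cases h1 : x = y
  · left; subst h1; simp [tripleCost, pairCost_self hs]
  by_cases h2 : x = z
  · left; subst h2; simp [tripleCost, pairCost_self hs]
  by_cases h3 : y = z
  · left; subst h3; simp [tripleCost, pairCost_self hs]
  exact Or.inr ⟨h1, h2, h3, tripleCost_of_ne s h1 h2 h3⟩

theorem phi_lower {s : ℝ} (hs : 0 < s) {x : E} (hx : x ≠ 0) {R : ℝ} (hR : ‖x‖ ≤ R) : R ^ (-s) ≤ phi s x :=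
  Real.rpow_le_rpow_of_nonpos (norm_pos_iff.2 hx) hR (by linarith)

/-- centers of the outer clusters -/
noncomputable def ctr (a : Bool → E) (k : Bool × Bool) : E := if k.2 then -a k.1 else a k.1

/-- contact triples -/
def Contact (P : Bool × Bool → E → E) (ε : ℝ) (x y z : E) : Prop :=
  ∃ i, ∃ b ∈ Metric.closedBall (0:E) ε,
    (x = b ∧ y = P (i, false) b ∧ z = P (i, true) b) ∨ (x = b ∧ y = P (i, true) b ∧ z = P (i, false) b) ∨
    (x = P (i, false) b ∧ y = b ∧ z = P (i, true) b) ∨ (x = P (i, false) b ∧ y = P (i, true) b ∧ z = b) ∨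
    (x = P (i, true) b ∧ y = b ∧ z = P (i, false) b) ∨ (x = P (i, true) b ∧ y = P (i, false) b ∧ z = b)

theorem Contact.swap12 {P : Bool × Bool → E → E} {ε : ℝ} {x y z : E} (h : Contact P ε x y z) :
    Contact P ε y x z := by
  obtain ⟨i, b, hb, h⟩ := h
  refine ⟨i, b, hb, ?_⟩
  tauto

theorem Contact.swap23 {P : Bool × Bool → E → E} {ε : ℝ} {x y z : E} (h : Contact P ε x y z) :
    Contact P ε x z y := by
  obtain ⟨i, b, hb, h⟩ := h
  refine ⟨i, b, hb, ?_⟩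
  tauto

/-- the inequality between cost and potentials -/
def Good (s : ℝ) (P : Bool × Bool → E → E) (ε : ℝ) (u : E → ℝ) (x y z : E) : Prop :=
  tripleCost s (x, y, z) = ⊤ ∨ (tripleCost s (x, y, z) = ENNReal.ofReal (cR s x y z) ∧
      (u x + u y + u z < cR s x y z ∨ (u x + u y + u z = cR s x y z ∧ Contact P ε x y z)))

/-- all the data -/
structure Data (s : ℝ) (E : Type*) [NormedAddCommGroup E] [InnerProductSpace ℝ E]
    [FiniteDimensional ℝ E] [MeasurableSpace E] [BorelSpace E] where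
  P : Bool × Bool → E → E
  Pi : Bool × Bool → E → E
  ε : ℝ
  hε : 0 < ε
  u : E → ℝ
  um : Measurable u
  C : ℝ
  uC : ∀ x, |u x| ≤ C
  Pm : ∀ k, Measurable (P k)
  chart : ∀ k, ∀ x ∈ Metric.closedBall (0:E) ε, ChartAt (P k) (Pi k) x
  disj0 : ∀ k, ∀ b ∈ Metric.closedBall (0:E) ε, ∀ b' ∈ Metric.closedBall (0:E) ε, P k b ≠ b'
  disj : ∀ k l, k ≠ l → ∀ b ∈ Metric.closedBall (0:E) ε, ∀ b' ∈ Metric.closedBall (0:E) ε, P k b ≠ P l b'
  sep0 : ∀ k, ∀ b ∈ Metric.closedBall (0:E) ε, 1 / 2 ≤ ‖b - P k b‖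
  sep : ∀ i, ∀ b ∈ Metric.closedBall (0:E) ε, 1 / 2 ≤ ‖P (i, false) b - P (i, true) b‖
  eqc : ∀ i, ∀ b ∈ Metric.closedBall (0:E) ε,
    u b + u (P (i, false) b) + u (P (i, true) b) = cR s b (P (i, false) b) (P (i, true) b)
  ineq : ∀ x y z : E, (x ∈ Metric.closedBall (0:E) ε ∨ ∃ k, ∃ b ∈ Metric.closedBall (0:E) ε, x = P k b) →
    (y ∈ Metric.closedBall (0:E) ε ∨ ∃ k, ∃ b ∈ Metric.closedBall (0:E) ε, y = P k b) →
    (z ∈ Metric.closedBall (0:E) ε ∨ ∃ k, ∃ b ∈ Metric.closedBall (0:E) ε, z = P k b) →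
    Good s P ε u x y z

theorem cR_swap12 (s : ℝ) (x y z : E) : cR s x y z = cR s y x z := by
  simp only [cR]
  rw [← phi_neg s (x - y), neg_sub]; ring

theorem cR_swap23 (s : ℝ) (x y z : E) : cR s x y z = cR s x z y := by
  simp only [cR]
  rw [← phi_neg s (y - z), neg_sub]; ring

theorem numeric (s : ℝ) (hs : 0 < s) : 0 < ((Real.sqrt 2) ^ (-s) - 2 ^ (-s)) / 4 ∧
    ((Real.sqrt 2) ^ (-s) - 2 ^ (-s)) / 4 < 1 / 4 ∧
    ∀ᶠ η in 𝓝[>] (0:ℝ), MM s + 2 * (-1 + ((Real.sqrt 2) ^ (-s) - 2 ^ (-s)) / 4) <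
      2 * (1 + 2 * η) ^ (-s) + (Real.sqrt 2 + 2 * η) ^ (-s) := by
  have h2 : (1:ℝ) < Real.sqrt 2 := by
    rw [Real.lt_sqrt (by norm_num)]; norm_num
  have h3 : Real.sqrt 2 < 2 := by
    rw [Real.sqrt_lt' (by norm_num)]; norm_num
  have h4 : (2:ℝ) ^ (-s) < (Real.sqrt 2) ^ (-s) :=
    Real.rpow_lt_rpow_of_neg (by linarith) h3 (by linarith)
  have h5 : (Real.sqrt 2) ^ (-s) < 1 := Real.rpow_lt_one_of_one_lt_of_neg h2 (by linarith)
  have h6 : (0:ℝ) < 2 ^ (-s) := Real.rpow_pos_of_pos (by norm_num) _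
  refine ⟨by linarith, by linarith, ?_⟩
  have hc : ContinuousAt (fun η : ℝ => 2 * (1 + 2 * η) ^ (-s) + (Real.sqrt 2 + 2 * η) ^ (-s)) 0 := by
    refine ContinuousAt.add (ContinuousAt.mul continuousAt_const ?_) ?_
    · exact ContinuousAt.rpow_const (by fun_prop) (Or.inl (by norm_num))
    · exact ContinuousAt.rpow_const (by fun_prop) (Or.inl (by
        simp only [mul_zero, add_zero]; linarith))
  have hv : MM s + 2 * (-1 + ((Real.sqrt 2) ^ (-s) - 2 ^ (-s)) / 4) <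
      2 * (1 + 2 * (0:ℝ)) ^ (-s) + (Real.sqrt 2 + 2 * (0:ℝ)) ^ (-s) := by
    simp only [mul_zero, add_zero, Real.one_rpow, MM]
    linarith
  exact (hc.eventually (lt_mem_nhds hv)).filter_mono nhdsWithin_le_nhds

theorem numeric2 (s : ℝ) (hs : 0 < s) (A : ℝ) : ∀ᶠ ε in 𝓝[>] (0:ℝ), A < (2 * ε) ^ (-s) := by
  have h1 : Tendsto (fun ε : ℝ => (2 * ε) ^ (-s)) (𝓝[>] 0) atTop := by
    have : Tendsto (fun ε : ℝ => 2 * ε) (𝓝[>] (0:ℝ)) (𝓝[>] 0) := by
      refine tendsto_nhdsWithin_iff.2 ⟨?_, ?_⟩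
      · have : Tendsto (fun ε : ℝ => 2 * ε) (𝓝 (0:ℝ)) (𝓝 (2 * 0)) := (continuous_const.mul continuous_id).tendsto 0
        rw [mul_zero] at this
        exact this.mono_left nhdsWithin_le_nhds
      · filter_upwards [self_mem_nhdsWithin] with ε hε
        simp only [mem_Ioi] at hε ⊢
        linarith
    exact (tendsto_rpow_neg_nhdsGT_zero (by linarith)).comp this
  exact h1.eventually (eventually_gt_atTop A)

theorem Good.swap12 {s : ℝ} {P : Bool × Bool → E → E} {ε : ℝ} {u : E → ℝ} {x y z : E}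
    (h : Good s P ε u x y z) : Good s P ε u y x z := by
  rcases h with h | ⟨h1, h2⟩
  · left; rw [← tripleCost_swap12]; exact h
  · right
    refine ⟨by rw [← tripleCost_swap12, h1, cR_swap12], ?_⟩
    rw [← cR_swap12, add_comm (u y) (u x)]
    rcases h2 with h2 | ⟨h2, h3⟩
    · exact Or.inl h2
    · exact Or.inr ⟨h2, h3.swap12⟩

theorem Good.swap23 {s : ℝ} {P : Bool × Bool → E → E} {ε : ℝ} {u : E → ℝ} {x y z : E}
    (h : Good s P ε u x y z) : Good s P ε u x z y := by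
  rcases h with h | ⟨h1, h2⟩
  · left; rw [← tripleCost_swap23]; exact h
  · right
    refine ⟨by rw [← tripleCost_swap23, h1, cR_swap23], ?_⟩
    rw [← cR_swap23, add_assoc, add_comm (u z) (u y), ← add_assoc]
    rcases h2 with h2 | ⟨h2, h3⟩
    · exact Or.inl h2
    · exact Or.inr ⟨h2, h3.swap23⟩

theorem norm_ctr {a : Bool → E} (ha : ∀ i, ‖a i‖ = 1) (k : Bool × Bool) : ‖ctr a k‖ = 1 := by
  unfold ctr; split_ifs
  · rw [norm_neg, ha]
  · exact ha _

theorem ctr_sq {a : Bool → E} (ha : ∀ i, ‖a i‖ = 1) (ho : ⟪a false, a true⟫ = 0) {k l : Bool × Bool}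
    (h : k.1 ≠ l.1) : ‖ctr a k - ctr a l‖ ^ 2 = 2 := by
  have h1 : ⟪ctr a k, ctr a l⟫ = 0 := by
    have ho' : ⟪a true, a false⟫ = 0 := by rw [real_inner_comm]; exact ho
    obtain ⟨k1, k2⟩ := k
    obtain ⟨l1, l2⟩ := l
    simp only at h
    cases k1 <;> cases l1 <;> simp only [ctr] <;> split_ifs <;>
      simp_all [inner_neg_left, inner_neg_right]
  rw [norm_sub_sq_real, h1, norm_ctr ha, norm_ctr ha]; norm_num

theorem ctr_dist_ge {a : Bool → E} (ha : ∀ i, ‖a i‖ = 1) (ho : ⟪a false, a true⟫ = 0) {k l : Bool × Bool}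
    (h : k ≠ l) : 1 ≤ ‖ctr a k - ctr a l‖ := by
  by_cases h1 : k.1 = l.1
  · have h2 : k.2 ≠ l.2 := fun h2 => h (Prod.ext h1 h2)
    have : ‖ctr a k - ctr a l‖ = 2 := by
      have e : ‖(2:ℝ) • a l.1‖ = 2 := by rw [norm_smul, ha]; norm_num
      unfold ctr
      rw [h1]
      cases hk : k.2 <;> cases hl : l.2 <;> simp_all only [ne_eq, not_true_eq_false, if_true, if_false,
        Bool.false_eq_true, reduceCtorEq, not_false_eq_true]
      · rw [sub_neg_eq_add, ← two_smul ℝ (a l.1), e]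
      · rw [← norm_neg, neg_sub, sub_neg_eq_add, ← two_smul ℝ (a l.1), e]
    rw [this]; norm_num
  · have := ctr_sq ha ho h1
    nlinarith [norm_nonneg (ctr a k - ctr a l)]

theorem ctr_dist_le {a : Bool → E} (ha : ∀ i, ‖a i‖ = 1) (ho : ⟪a false, a true⟫ = 0) {k l : Bool × Bool}
    (h : l ≠ (k.1, !k.2)) : ‖ctr a k - ctr a l‖ ≤ Real.sqrt 2 := by
  by_cases h1 : k.1 = l.1
  · have h2 : k.2 = l.2 := by
      by_contra h2
      apply h
      refine Prod.ext h1.symm ?_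
      simp only
      cases hk : k.2 <;> cases hl : l.2 <;> simp_all
    have : k = l := Prod.ext h1 h2
    rw [this, sub_self, norm_zero]; positivity
  · rw [← ctr_sq ha ho h1, Real.sqrt_sq (norm_nonneg _)]

end Crest.Agent.H3.MM
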