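import Crest.Agent.H3.MM.Pack

open Set Filter Topology MeasureTheory
open scoped ContDiff RealInnerProductSpace ENNReal

namespace Crest.Agent.H3.MM

variable {E : Type*} [NormedAddCommGroup E] [InnerProductSpace ℝ E]
variable [FiniteDimensional ℝ E] [MeasurableSpace E] [BorelSpace E]

noncomputable def dens (χ : E → ℝ) : Measure E :=
  (volume : Measure E).withDensity fun x => ENNReal.ofReal (χ x ^ 2)

theorem push_density {f fi : E → E} {ε : ℝ} (hch : ∀ x ∈ Metric.closedBall (0:E) ε, ChartAt f fi x)
    (hfm : Measurable f) {χ : E → ℝ} (hχ : ContDiff ℝ ∞ χ) (hχ0 : ∀ x, 0 ≤ χ x)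
    (hχs : ∀ x, x ∉ Metric.closedBall (0:E) ε → χ x = 0) :
    ∃ τ : E → ℝ, ContDiff ℝ ∞ τ ∧ (∀ y, 0 ≤ τ y) ∧ (∀ y, y ∉ f '' Metric.closedBall 0 ε → τ y = 0) ∧
      dens τ = (dens χ).map f := by
  classical
  set B := Metric.closedBall (0:E) ε with hB
  have hBc : IsCompact B := isCompact_closedBall _ _
  have hfc : ContinuousOn f B := fun x hx => (hch x hx).1.continuousAt.continuousWithinAt
  have hIc : IsCompact (f '' B) := hBc.image_of_continuousOn hfc
  have hinj : InjOn f B := by
    intro x hx y hy hxy
    rw [← (hch x hx).2.1, ← (hch y hy).2.1, hxy]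
  let J : E → ℝ := fun x => |(fderiv ℝ f x).det| ^ (-(1:ℝ) / 2)
  let τ : E → ℝ := fun y => if y ∈ f '' B then χ (fi y) * J (fi y) else 0
  have hτ0 : ∀ y, y ∉ f '' B → τ y = 0 := fun y hy => if_neg hy
  have hτf : ∀ x ∈ B, τ (f x) = χ x * J x := by
    intro x hx
    simp only [τ, if_pos (mem_image_of_mem f hx), (hch x hx).2.1]
  refine ⟨τ, ?_, ?_, hτ0, ?_⟩
  · rw [contDiff_iff_contDiffAt]
    intro y
    by_cases hy : y ∈ f '' B
    · obtain ⟨x, hx, rfl⟩ := hy
      obtain ⟨h1, h2, h3, h4, h5⟩ := hch x hx
      have e : τ =ᶠ[𝓝 (f x)] fun y => χ (fi y) * J (fi y) := by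
        filter_upwards [h5] with y hy
        by_cases hyi : y ∈ f '' B
        · simp only [τ, if_pos hyi]
        · simp only [τ, if_neg hyi]
          have : fi y ∉ B := fun h => hyi ⟨fi y, h, hy⟩
          rw [hχs _ this, zero_mul]
      refine ContDiffAt.congr_of_eventuallyEq ?_ e
      have hJ : ContDiffAt ℝ ∞ J x := by
        have k1 : ContDiffAt ℝ ∞ (fderiv ℝ f) x := h1.fderiv_right (by simp)
        have k2 : ContDiffAt ℝ ∞ (fun x => (fderiv ℝ f x).det) x :=
          ContDiffAt.comp (g := fun A : E →L[ℝ] E => A.det) (f := fderiv ℝ f) x contDiff_det.contDiffAt k1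
        exact (k2.abs h4).rpow_const_of_ne (abs_ne_zero.2 h4)
      have hprod : ContDiffAt ℝ ∞ (fun x => χ x * J x) (fi (f x)) := by
        rw [h2]; exact hχ.contDiffAt.mul hJ
      exact ContDiffAt.comp (g := fun x => χ x * J x) (f := fi) (f x) hprod h3
    · have e : τ =ᶠ[𝓝 y] fun _ => 0 := by
        filter_upwards [hIc.isClosed.isOpen_compl.mem_nhds hy] with z hz
        exact hτ0 z hz
      exact ContDiffAt.congr_of_eventuallyEq contDiffAt_const e
  · intro y
    by_cases hy : y ∈ f '' B
    · simp only [τ, if_pos hy]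
      exact mul_nonneg (hχ0 _) (Real.rpow_nonneg (abs_nonneg _) _)
    · rw [hτ0 y hy]
  · ext A hA
    rw [Measure.map_apply hfm hA, dens, dens, withDensity_apply _ hA, withDensity_apply _ (hfm hA)]
    have hIm : MeasurableSet (f '' B) := hIc.isClosed.measurableSet
    have hBm : MeasurableSet B := hBc.isClosed.measurableSet
    calc ∫⁻ y in A, ENNReal.ofReal (τ y ^ 2) = ∫⁻ y, A.indicator (fun y => ENNReal.ofReal (τ y ^ 2)) y :=
          (lintegral_indicator hA _).symm
      _ = ∫⁻ y in f '' B, A.indicator (fun y => ENNReal.ofReal (τ y ^ 2)) y := by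
          rw [← lintegral_indicator hIm]
          congr 1
          funext y
          by_cases hy : y ∈ f '' B
          · rw [indicator_of_mem hy]
          · rw [indicator_of_notMem hy]
            by_cases hyA : y ∈ A
            · rw [indicator_of_mem hyA, hτ0 y hy]; simp
            · rw [indicator_of_notMem hyA]
      _ = ∫⁻ x in B, ENNReal.ofReal |(fderiv ℝ f x).det| *
            A.indicator (fun y => ENNReal.ofReal (τ y ^ 2)) (f x) :=
          lintegral_image_eq_lintegral_abs_det_fderiv_mul _ hBm
            (fun x hx => ((hch x hx).1.differentiableAt (by simp)).hasFDerivAt.hasFDerivWithinAt) hinj _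
      _ = ∫⁻ x in B, (f ⁻¹' A).indicator (fun x => ENNReal.ofReal (χ x ^ 2)) x := by
          refine setLIntegral_congr_fun hBm fun x hx => ?_
          by_cases hxA : f x ∈ A
          · rw [indicator_of_mem hxA, indicator_of_mem (show x ∈ f ⁻¹' A from hxA)]
            rw [hτf x hx, ← ENNReal.ofReal_mul (abs_nonneg _)]
            congr 1
            have hd : 0 < |(fderiv ℝ f x).det| := abs_pos.2 (hch x hx).2.2.2.1
            have : J x ^ 2 = |(fderiv ℝ f x).det|⁻¹ := by
              simp only [J]
              rw [← Real.rpow_natCast, ← Real.rpow_mul hd.le, ← Real.rpow_neg_one]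
              norm_num
            rw [mul_pow, this]
            field_simp
          · rw [indicator_of_notMem hxA, indicator_of_notMem (show x ∉ f ⁻¹' A from hxA), mul_zero]
      _ = ∫⁻ x, (f ⁻¹' A).indicator (fun x => ENNReal.ofReal (χ x ^ 2)) x := by
          rw [← lintegral_indicator hBm]
          congr 1
          funext x
          by_cases hx : x ∈ B
          · rw [indicator_of_mem hx]
          · rw [indicator_of_notMem hx]
            by_cases hxA : x ∈ f ⁻¹' A
            · rw [indicator_of_mem hxA, hχs x hx]; simp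
            · rw [indicator_of_notMem hxA]
      _ = _ := lintegral_indicator (hfm hA) _

theorem exists_bump {ε : ℝ} (hε : 0 < ε) : ∃ χ : E → ℝ, ContDiff ℝ ∞ χ ∧ (∀ x, 0 ≤ χ x) ∧
    (∀ x, x ∉ Metric.closedBall (0:E) ε → χ x = 0) ∧ dens χ univ = 1 := by
  let φ : ContDiffBump (0:E) := ⟨ε / 2, ε, by linarith, by linarith⟩
  have hφs : HasCompactSupport (fun x => φ x ^ 2) := by
    have := φ.hasCompactSupport
    refine HasCompactSupport.intro (isCompact_closedBall (0:E) ε) fun x hx => ?_
    have : φ x = 0 := φ.zero_of_le_dist (by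
      rw [Metric.mem_closedBall, not_le] at hx; exact hx.le)
    rw [this]; norm_num
  have hφc : Continuous (fun x => φ x ^ 2) := φ.continuous.pow 2
  have hint : Integrable (fun x => φ x ^ 2) (volume : Measure E) := hφc.integrable_of_hasCompactSupport hφs
  set I := ∫ x, φ x ^ 2 with hI
  have hIpos : 0 < I := by
    rw [hI]
    refine hφc.integral_pos_of_hasCompactSupport_nonneg_nonzero hφs (fun x => by positivity) (x := 0) ?_
    have : φ 0 = 1 := φ.one_of_mem_closedBall (Metric.mem_closedBall_self (by linarith [φ.rIn_pos]))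
    simp [this]
  refine ⟨fun x => φ x / Real.sqrt I, φ.contDiff.div_const _, fun x => by
    have := φ.nonneg (x := x); positivity, fun x hx => ?_, ?_⟩
  · have : φ x = 0 := φ.zero_of_le_dist (by
      rw [Metric.mem_closedBall, not_le] at hx; exact hx.le)
    simp [this]
  · rw [dens, withDensity_apply _ MeasurableSet.univ, Measure.restrict_univ]
    have : ∀ x, (φ x / Real.sqrt I) ^ 2 = φ x ^ 2 / I := by
      intro x; rw [div_pow, Real.sq_sqrt hIpos.le]
    simp_rw [this]
    rw [← ofReal_integral_eq_lintegral_ofReal (hint.div_const I) (Eventually.of_forall fun x => by positivity)]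
    rw [integral_div, ← hI, div_self hIpos.ne', ENNReal.ofReal_one]

end Crest.Agent.H3.MM
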