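import Crest.Agent.H3.MM.MongeApprox

open Set Filter Topology MeasureTheory
open scoped ContDiff RealInnerProductSpace ENNReal
open Crest.AnalysisR.OT

namespace Crest.Agent.H3.MM

theorem sum_sq_of_disjoint {ι : Type*} [Fintype ι] [DecidableEq ι] (v : ι → ℝ)
    (h : ∀ i j, i ≠ j → v i * v j = 0) : (∑ i, v i) ^ 2 = ∑ i, v i ^ 2 := by
  rw [sq, Finset.sum_mul_sum]
  refine Finset.sum_congr rfl fun i _ => ?_
  rw [Finset.sum_eq_single i]
  · ring
  · intro j _ hj; exact h i j (Ne.symm hj)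
  · intro hi; exact absurd (Finset.mem_univ _) hi

variable {E : Type*} [NormedAddCommGroup E] [InnerProductSpace ℝ E]
variable [FiniteDimensional ℝ E] [MeasurableSpace E] [BorelSpace E]

theorem exists_density {s : ℝ} (D : Data s E) : ∃ θ χ : E → ℝ, ContDiff ℝ ∞ θ ∧ (∀ x, 0 ≤ θ x) ∧
    HasCompactSupport θ ∧ dens χ univ = 1 ∧ dens χ (Metric.closedBall (0:E) D.ε)ᶜ = 0 ∧
    dens θ = mu D (dens χ) := by
  classical
  obtain ⟨χ, hχ, hχ0, hχs, hχ1⟩ := exists_bump (E := E) D.hε
  have hτ := fun k => push_density (D.chart k) (D.Pm k) hχ hχ0 hχs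
  choose τ hτc hτ0 hτs hτd using hτ
  have hBm : MeasurableSet (Metric.closedBall (0:E) D.ε) := Metric.isClosed_closedBall.measurableSet
  let v : Option (Bool × Bool) → E → ℝ := fun o => match o with
    | none => fun x => Real.sqrt 2 * χ x
    | some k => τ k
  have hv0 : ∀ o x, 0 ≤ v o x := by
    intro o x
    cases o with
    | none => exact mul_nonneg (Real.sqrt_nonneg _) (hχ0 x)
    | some k => exact hτ0 k x
  have hvc : ∀ o, ContDiff ℝ ∞ (v o) := by
    intro o
    cases o with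
    | none => exact contDiff_const.mul hχ
    | some k => exact hτc k
  have hvs : ∀ o p x, o ≠ p → v o x * v p x = 0 := by
    intro o p x hop
    have c0 : ∀ k, (Real.sqrt 2 * χ x) * τ k x = 0 := by
      intro k
      by_cases hx : x ∈ Metric.closedBall (0:E) D.ε
      · by_cases hy : x ∈ D.P k '' Metric.closedBall (0:E) D.ε
        · obtain ⟨b, hb, hbx⟩ := hy
          exact absurd hbx (D.disj0 k b hb x hx)
        · rw [hτs k x hy, mul_zero]
      · rw [hχs x hx, mul_zero, zero_mul]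
    have c1 : ∀ k l, k ≠ l → τ k x * τ l x = 0 := by
      intro k l hkl
      by_cases hx : x ∈ D.P k '' Metric.closedBall (0:E) D.ε
      · by_cases hy : x ∈ D.P l '' Metric.closedBall (0:E) D.ε
        · obtain ⟨b, hb, hbx⟩ := hx
          obtain ⟨c, hc, hcx⟩ := hy
          exact absurd (hbx.trans hcx.symm) (D.disj k l hkl b hb c hc)
        · rw [hτs l x hy, mul_zero]
      · rw [hτs k x hx, zero_mul]
    cases o with
    | none =>
      cases p with
      | none => exact absurd rfl hop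
      | some l => exact c0 l
    | some k =>
      cases p with
      | none => rw [mul_comm]; exact c0 k
      | some l => exact c1 k l (fun h => hop (by rw [h]))
  let θ : E → ℝ := fun x => (∑ o, v o x) / Real.sqrt 6
  have hχm : Measurable fun x => ENNReal.ofReal (χ x ^ 2) :=
    ENNReal.measurable_ofReal.comp (hχ.continuous.measurable.pow_const 2)
  have hτm : ∀ k, Measurable fun x => ENNReal.ofReal (τ k x ^ 2) := fun k =>
    ENNReal.measurable_ofReal.comp ((hτc k).continuous.measurable.pow_const 2)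
  have hθ : ∀ x, ENNReal.ofReal (θ x ^ 2) = 6⁻¹ * (2 * ENNReal.ofReal (χ x ^ 2) +
      ∑ k, ENNReal.ofReal (τ k x ^ 2)) := by
    intro x
    have h1 : θ x ^ 2 = 6⁻¹ * (2 * χ x ^ 2 + ∑ k, τ k x ^ 2) := by
      simp only [θ]
      rw [div_pow, Real.sq_sqrt (by norm_num), sum_sq_of_disjoint (fun o => v o x) (fun i j hij => hvs i j x hij),
        Fintype.sum_option]
      simp only [v, mul_pow, Real.sq_sqrt (show (0:ℝ) ≤ 2 by norm_num)]
      ring
    rw [h1, ENNReal.ofReal_mul (by norm_num), ENNReal.ofReal_add (by positivity)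
      (Finset.sum_nonneg fun k _ => by positivity), ENNReal.ofReal_mul (by norm_num),
      ENNReal.ofReal_sum_of_nonneg (fun k _ => by positivity)]
    congr 1
    · rw [ENNReal.ofReal_inv_of_pos (by norm_num)]; norm_num
    · norm_num
  refine ⟨θ, χ, ?_, ?_, ?_, hχ1, ?_, ?_⟩
  · exact (ContDiff.sum fun o _ => hvc o).div_const _
  · intro x
    exact div_nonneg (Finset.sum_nonneg fun o _ => hv0 o x) (Real.sqrt_nonneg _)
  · refine HasCompactSupport.intro (isCompact_S D) fun x hx => ?_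
    simp only [θ]
    rw [Finset.sum_eq_zero, zero_div]
    intro o _
    cases o with
    | none =>
      show Real.sqrt 2 * χ x = 0
      rw [hχs x (fun h => hx (Or.inl h)), mul_zero]
    | some k =>
      exact hτs k x (fun h => hx (Or.inr (mem_iUnion.2 ⟨k, h⟩)))
  · rw [dens, withDensity_apply _ hBm.compl]
    rw [setLIntegral_congr_fun (g := fun _ => 0) hBm.compl (fun x hx => by rw [hχs x hx]; simp)]
    simp
  · ext A hA
    rw [mu_apply D _ hA]
    have h1 : ∀ k, dens χ (D.P k ⁻¹' A) = ∫⁻ x in A, ENNReal.ofReal (τ k x ^ 2) := by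
      intro k
      rw [← Measure.map_apply (D.Pm k) hA, ← hτd k, dens, withDensity_apply _ hA]
    have h2 : dens χ A = ∫⁻ x in A, ENNReal.ofReal (χ x ^ 2) := by
      rw [dens, withDensity_apply _ hA]
    rw [dens, withDensity_apply _ hA]
    simp_rw [hθ]
    have ms : Measurable fun x => ∑ k, ENNReal.ofReal (τ k x ^ 2) := Finset.measurable_sum _ fun k _ => hτm k
    have m2 : Measurable fun x => 2 * ENNReal.ofReal (χ x ^ 2) := hχm.const_mul 2
    have m3 : Measurable fun x => 2 * ENNReal.ofReal (χ x ^ 2) + ∑ k, ENNReal.ofReal (τ k x ^ 2) := m2.add ms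
    rw [lintegral_const_mul _ m3,
      lintegral_add_left m2, lintegral_const_mul _ hχm,
      lintegral_finset_sum _ (fun k _ => hτm k)]
    congr 1
    simp only [h1, h2, Fintype.sum_bool, Fintype.sum_prod_type]
    ring

theorem main {s : ℝ} (hs : 0 < s) [Nontrivial E] (a : Bool → E) (ha : ∀ i, ‖a i‖ = 1)
    (ho : ⟪a false, a true⟫ = 0) :
    ∃ ρ : E → ℝ, (∀ x, 0 ≤ ρ x) ∧ ContDiff ℝ ∞ ρ ∧ HasCompactSupport ρ ∧
      ContDiff ℝ ∞ (fun x => Real.sqrt (ρ x)) ∧ ∫ x, ρ x = 1 ∧
      ∃ π₀ : Measure (E × E × E),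
        IsCoupling₃ (measOfDensity ρ) π₀ ∧ ∫⁻ p, tripleCost s p ∂π₀ < ⊤ ∧
        (∀ π : Measure (E × E × E), IsCoupling₃ (measOfDensity ρ) π →
          ∫⁻ p, tripleCost s p ∂π₀ ≤ ∫⁻ p, tripleCost s p ∂π) ∧
        (∀ T₂ T₃ : E → E, Measurable T₂ → Measurable T₃ →
          (measOfDensity ρ).map T₂ = measOfDensity ρ → (measOfDensity ρ).map T₃ = measOfDensity ρ →
          ∫⁻ p, tripleCost s p ∂π₀ < ∫⁻ x, tripleCost s (x, T₂ x, T₃ x) ∂(measOfDensity ρ)) ∧
        (∀ ε : ℝ≥0∞, 0 < ε → ∃ T₂ T₃ : E → E, Measurable T₂ ∧ Measurable T₃ ∧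
          (measOfDensity ρ).map T₂ = measOfDensity ρ ∧ (measOfDensity ρ).map T₃ = measOfDensity ρ ∧
          ∫⁻ x, tripleCost s (x, T₂ x, T₃ x) ∂(measOfDensity ρ) < ∫⁻ p, tripleCost s p ∂π₀ + ε) := by
  obtain ⟨D⟩ := exists_data hs a ha ho
  obtain ⟨θ, χ, hθ, hθ0, hθs, hm, hB, hd⟩ := exists_density D
  have hmd : measOfDensity (fun x => θ x ^ 2) = mu D (dens χ) := by rw [← hd]; rfl
  haveI : NullSingletonClass (mu D (dens χ)) := by
    rw [← hd]
    refine ⟨fun x => ?_⟩
    exact (withDensity_absolutelyContinuous _ _) (measure_singleton x)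
  have hint : ∫⁻ x, ENNReal.ofReal (θ x ^ 2) = 1 := by
    have h1 : dens θ univ = 1 := by rw [hd]; exact mu_univ D _ hm
    rwa [dens, withDensity_apply _ MeasurableSet.univ, Measure.restrict_univ] at h1
  refine ⟨fun x => θ x ^ 2, fun x => by positivity, hθ.pow 2, ?_, ?_, ?_, pi0 D (dens χ), ?_, ?_, ?_, ?_, ?_⟩
  · exact HasCompactSupport.intro hθs fun x hx => by
      rw [image_eq_zero_of_notMem_tsupport hx]; norm_num
  · simp only [Real.sqrt_sq (hθ0 _)]
    exact hθ
  · have hc : Continuous (fun x => θ x ^ 2) := hθ.continuous.pow 2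
    show ∫ x, θ x ^ 2 = 1
    rw [integral_eq_lintegral_of_nonneg_ae (Eventually.of_forall fun x => sq_nonneg (θ x))
      hc.aestronglyMeasurable, hint, ENNReal.toReal_one]
  · rw [hmd]; exact coupling_pi0 D _
  · exact pi0_lt_top D _ hm hB
  · intro π hπ
    rw [hmd] at hπ
    exact pi0_optimal D _ hm hB hπ
  · intro T₂ T₃ h2 h3 e2 e3
    rw [hmd] at e2 e3 ⊢
    exact strict_monge D _ hm hB h2 h3 e2 e3
  · intro ε hε
    rw [hmd]
    exact exists_monge D _ hm hB hs hε

end Crest.Agent.H3.MM
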