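import Mathlib

open Set Filter Topology
open scoped ContDiff RealInnerProductSpace

namespace Crest.Agent.H3.MM

variable {E : Type*} [NormedAddCommGroup E] [InnerProductSpace ℝ E]

/-- the inverse power potential -/
noncomputable def phi (s : ℝ) (w : E) : ℝ := ‖w‖ ^ (-s)

/-- gradient of the inverse power potential -/
noncomputable def G (s : ℝ) (w : E) : E := (-s * ‖w‖ ^ (-s - 2)) • w

/-- derivative of the gradient -/
noncomputable def DG (s : ℝ) (w : E) : E →L[ℝ] E :=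
  (-s * ‖w‖ ^ (-s - 2)) • ContinuousLinearMap.id ℝ E +
    (s * (s + 2) * ‖w‖ ^ (-s - 4)) • (innerSL ℝ w).smulRight w

theorem DG_apply (s : ℝ) (w h : E) : DG s w h =
    (-s * ‖w‖ ^ (-s - 2)) • h + (s * (s + 2) * ‖w‖ ^ (-s - 4) * ⟪w, h⟫) • w := by
  simp [DG, smul_smul]

theorem G_neg (s : ℝ) (w : E) : G s (-w) = - G s w := by
  simp [G]

theorem DG_neg (s : ℝ) (w : E) : DG s (-w) = DG s w := by
  ext h
  simp only [DG_apply, norm_neg, inner_neg_left, mul_neg, neg_smul, smul_neg, neg_neg]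

theorem phi_neg (s : ℝ) (w : E) : phi s (-w) = phi s w := by simp [phi]

theorem phi_eq (s : ℝ) : (phi s : E → ℝ) = fun w => (‖w‖ ^ 2) ^ (-s / 2) := by
  funext w
  rw [phi, ← Real.rpow_natCast, ← Real.rpow_mul (norm_nonneg _)]
  congr 1
  push_cast; ring

theorem hasFDerivAt_phi (s : ℝ) {w : E} (hw : w ≠ 0) :
    HasFDerivAt (phi s) (innerSL ℝ (G s w)) w := by
  have h0 : ‖w‖ ^ 2 ≠ 0 := pow_ne_zero _ (norm_ne_zero_iff.2 hw)
  have h1 := (hasStrictFDerivAt_norm_sq w).hasFDerivAt.rpow_const (p := -s / 2) (Or.inl h0)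
  rw [phi_eq]
  refine h1.congr_fderiv ?_
  ext h
  have h2 : (‖w‖ ^ 2) ^ (-s / 2 - 1) = ‖w‖ ^ (-s - 2) := by
    rw [← Real.rpow_natCast, ← Real.rpow_mul (norm_nonneg _)]
    congr 1
    push_cast; ring
  simp only [h2, G, ContinuousLinearMap.smul_apply, innerSL_apply_apply, smul_eq_mul, inner_smul_left,
    RCLike.conj_to_real]
  simp only [nsmul_eq_mul]
  push_cast
  ring

theorem hasFDerivAt_G (s : ℝ) {w : E} (hw : w ≠ 0) :
    HasFDerivAt (G s) (DG s w) w := by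
  have h1 : HasFDerivAt (fun w : E => -s * ‖w‖ ^ (-s - 2)) ((-s) • innerSL ℝ (G (s + 2) w)) w := by
    have := (hasFDerivAt_phi (s + 2) hw).const_mul (-s)
    refine this.congr_of_eventuallyEq (Eventually.of_forall fun v => ?_)
    simp only [phi]
    congr 2
    ring
  have h2 := h1.smul (hasFDerivAt_id w)
  refine h2.congr_fderiv ?_
  ext h
  simp only [DG_apply, ContinuousLinearMap.add_apply, ContinuousLinearMap.smul_apply, id_eq,
    ContinuousLinearMap.smulRight_apply, ContinuousLinearMap.id_apply, innerSL_apply_apply, smul_eq_mul, G,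
    inner_smul_left, RCLike.conj_to_real]
  congr 2
  have : ‖w‖ ^ (-(s + 2) - 2) = ‖w‖ ^ (-s - 4) := by congr 1; ring
  rw [this]; ring

theorem contDiffAt_G (s : ℝ) {w : E} (hw : w ≠ 0) {n : WithTop ℕ∞} : ContDiffAt ℝ n (G s) w := by
  unfold G
  exact ((contDiffAt_const.mul ((contDiffAt_norm ℝ hw).rpow_const_of_ne (norm_ne_zero_iff.2 hw)))).smul
    contDiffAt_id

theorem continuousAt_phi (s : ℝ) {w : E} (hw : w ≠ 0) : ContinuousAt (phi s) w :=
  (hasFDerivAt_phi s hw).continuousAt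

theorem DG_injective {s : ℝ} (hs : 0 < s) {w : E} (hw : w ≠ 0) {h : E} (hh : DG s w h = 0) : h = 0 := by
  have hn : 0 < ‖w‖ := norm_pos_iff.2 hw
  have h1 : ⟪w, DG s w h⟫ = 0 := by rw [hh, inner_zero_right]
  rw [DG_apply, inner_add_right, inner_smul_right, inner_smul_right, real_inner_self_eq_norm_sq] at h1
  have h4 : ‖w‖ ^ (-s - 2) = ‖w‖ ^ (-s - 4) * ‖w‖ ^ 2 := by
    rw [← Real.rpow_natCast, ← Real.rpow_add hn]; congr 1; push_cast; ring
  rw [h4] at h1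
  have hp : 0 < ‖w‖ ^ (-s - 4) := Real.rpow_pos_of_pos hn _
  have h2 : (s * (s + 1) * ‖w‖ ^ (-s - 4) * ‖w‖ ^ 2) * ⟪w, h⟫ = 0 := by
    nlinarith [h1]
  have h3 : ⟪w, h⟫ = 0 := by
    rcases mul_eq_zero.1 h2 with h | h
    · exact absurd h (by positivity)
    · exact h
  rw [DG_apply, h3] at hh
  simp only [mul_zero, zero_smul, add_zero] at hh
  rcases smul_eq_zero.1 hh with h5 | h5
  · have : 0 < ‖w‖ ^ (-s - 2) := Real.rpow_pos_of_pos hn _
    nlinarith
  · exact h5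

end Crest.Agent.H3.MM

namespace Crest.Agent.H3.MM

variable {E : Type*} [NormedAddCommGroup E] [InnerProductSpace ℝ E]

theorem DG_two_smul (s : ℝ) (a h : E) :
    DG s ((2:ℝ) • a) h = (2:ℝ) ^ (-s - 2) • DG s a h := by
  rw [DG_apply, DG_apply, norm_smul, Real.norm_of_nonneg (by norm_num : (0:ℝ) ≤ 2),
    Real.mul_rpow (by norm_num) (norm_nonneg _), Real.mul_rpow (by norm_num) (norm_nonneg _),
    inner_smul_left, RCLike.conj_to_real, smul_add, smul_smul, smul_smul, smul_smul]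
  congr 1
  · congr 1; ring
  · congr 1
    have : (2:ℝ) ^ (-s - 2) = 2 ^ (-s - 4) * 4 := by
      rw [show (4:ℝ) = 2 ^ (2:ℝ) by norm_num, ← Real.rpow_add (by norm_num)]
      congr 1; ring
    rw [this]; ring

/-- Lipschitz constant of the gradient on the annulus -/
noncomputable def Lam (s : ℝ) : ℝ := s * (s + 3) * 2 ^ (s + 2)

theorem Lam_pos {s : ℝ} (hs : 0 < s) : 0 < Lam s := by
  unfold Lam
  have : (0:ℝ) < 2 ^ (s + 2) := Real.rpow_pos_of_pos (by norm_num) _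
  positivity

theorem norm_DG_le {s : ℝ} (hs : 0 < s) {w : E} (hw : 1 / 2 ≤ ‖w‖) : ‖DG s w‖ ≤ Lam s := by
  have hn : 0 < ‖w‖ := by linarith
  have h1 : ‖w‖ ^ (-s - 2) ≤ 2 ^ (s + 2) := by
    have : (2:ℝ) ^ (s + 2) = (1 / 2) ^ (-s - 2) := by
      rw [one_div, Real.inv_rpow (by norm_num), ← Real.rpow_neg (by norm_num)]
      congr 1; ring
    rw [this]
    exact Real.rpow_le_rpow_of_nonpos (by norm_num) hw (by linarith)
  have h4 : ‖w‖ ^ (-s - 4) * ‖w‖ ^ 2 = ‖w‖ ^ (-s - 2) := by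
    rw [← Real.rpow_natCast, ← Real.rpow_add hn]; congr 1; push_cast; ring
  have hp : 0 < ‖w‖ ^ (-s - 4) := Real.rpow_pos_of_pos hn _
  have hp2 : 0 < ‖w‖ ^ (-s - 2) := Real.rpow_pos_of_pos hn _
  refine ContinuousLinearMap.opNorm_le_bound _ (Lam_pos hs).le fun h => ?_
  rw [DG_apply]
  calc ‖(-s * ‖w‖ ^ (-s - 2)) • h + (s * (s + 2) * ‖w‖ ^ (-s - 4) * ⟪w, h⟫) • w‖
      ≤ ‖(-s * ‖w‖ ^ (-s - 2)) • h‖ + ‖(s * (s + 2) * ‖w‖ ^ (-s - 4) * ⟪w, h⟫) • w‖ := norm_add_le _ _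
    _ = s * ‖w‖ ^ (-s - 2) * ‖h‖ + s * (s + 2) * ‖w‖ ^ (-s - 4) * |⟪w, h⟫| * ‖w‖ := by
        rw [norm_smul, norm_smul, Real.norm_eq_abs, Real.norm_eq_abs, abs_mul, abs_neg, abs_of_pos hs,
          abs_of_pos hp2, abs_mul, abs_of_pos (by positivity : 0 < s * (s + 2) * ‖w‖ ^ (-s - 4))]
    _ ≤ s * ‖w‖ ^ (-s - 2) * ‖h‖ + s * (s + 2) * ‖w‖ ^ (-s - 4) * (‖w‖ * ‖h‖) * ‖w‖ := by
        gcongr; exact abs_real_inner_le_norm _ _
    _ = s * (s + 3) * ‖w‖ ^ (-s - 2) * ‖h‖ := by rw [← h4]; ring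
    _ ≤ Lam s * ‖h‖ := by
        unfold Lam; gcongr

theorem lipG {s : ℝ} (hs : 0 < s) {w₀ w w' : E} (h0 : 3 / 4 ≤ ‖w₀‖) (hw : ‖w - w₀‖ ≤ 1 / 4)
    (hw' : ‖w' - w₀‖ ≤ 1 / 4) : ‖G s w - G s w'‖ ≤ Lam s * ‖w - w'‖ := by
  have hn : ∀ v ∈ Metric.closedBall w₀ (1 / 4), 1 / 2 ≤ ‖v‖ := by
    intro v hv
    rw [Metric.mem_closedBall, dist_eq_norm] at hv
    have := norm_sub_norm_le w₀ (w₀ - v)
    rw [sub_sub_cancel, norm_sub_rev] at this
    linarith
  have := (convex_closedBall w₀ (1 / 4 : ℝ)).norm_image_sub_le_of_norm_hasFDerivWithin_le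
    (f := G s) (f' := DG s) (C := Lam s) (x := w') (y := w)
    (fun v hv => (hasFDerivAt_G s (norm_pos_iff.1 (by linarith [hn v hv]))).hasFDerivWithinAt)
    (fun v hv => norm_DG_le hs (hn v hv))
    (by rw [Metric.mem_closedBall, dist_eq_norm]; exact hw')
    (by rw [Metric.mem_closedBall, dist_eq_norm]; exact hw)
  exact this

/-- the concavity constant -/
noncomputable def Kc (s : ℝ) : ℝ := (3 + 2 ^ (s + 2)) * Lam s + 1

theorem Kc_ge {s : ℝ} (hs : 0 < s) : 3 * Lam s + 1 ≤ Kc s := by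
  have h1 : (0:ℝ) < 2 ^ (s + 2) := Real.rpow_pos_of_pos (by norm_num) _
  have h2 := Lam_pos hs
  unfold Kc
  nlinarith

noncomputable def xi (s : ℝ) : ℝ := s * (1 + 2 ^ (-s - 1))

/-- x-gradient of the tilted cost -/
noncomputable def gX (s : ℝ) (x y z : E) : E := G s (x - y) + G s (x - z) + Kc s • x

/-- y-gradient of the tilted cost -/
noncomputable def gY (s : ℝ) (a x y z : E) : E :=
  G s (y - x) + G s (y - z) + xi s • a + Kc s • (y - a)

/-- tilted cost -/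
noncomputable def Ph (s : ℝ) (a x y z : E) : ℝ :=
  phi s (x - y) + phi s (x - z) + phi s (y - z) + Kc s / 2 * ‖x‖ ^ 2 + xi s * ⟪a, y - a⟫ +
    Kc s / 2 * ‖y - a‖ ^ 2

theorem gX_base {s : ℝ} {a : E} : gX s 0 a (-a) = 0 := by
  simp [gX, G_neg]

theorem gY_base {s : ℝ} {a : E} (ha : ‖a‖ = 1) : gY s a 0 a (-a) = 0 := by
  simp only [gY, sub_zero, sub_neg_eq_add, sub_self, smul_zero, add_zero, G, ha, Real.one_rpow, mul_one]
  rw [← two_smul ℝ a, norm_smul, ha, smul_smul, ← add_smul, ← add_smul]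
  simp only [Real.norm_ofNat, mul_one, xi]
  have : (2:ℝ) ^ (-s - 2) * 2 = 2 ^ (-s - 1) := by
    rw [← Real.rpow_add_one (by norm_num)]; congr 1; ring
  rw [show -s + -s * 2 ^ (-s - 2) * 2 + s * (1 + 2 ^ (-s - 1)) =
    -s * (2 ^ (-s - 2) * 2) + s * 2 ^ (-s - 1) by ring, this]
  simp

theorem hasDerivAt_phi_line (s : ℝ) {v w : E} {t : ℝ} (h : v + t • w ≠ 0) :
    HasDerivAt (fun t : ℝ => phi s (v + t • w)) (⟪G s (v + t • w), w⟫) t := by
  have h1 : HasDerivAt (fun t : ℝ => v + t • w) w t := by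
    simpa using ((hasDerivAt_id t).smul_const w).const_add v
  have := (hasFDerivAt_phi s h).comp_hasDerivAt t h1
  refine (this : HasDerivAt (fun t : ℝ => phi s (v + t • w)) _ t).congr_deriv (by simp)

theorem hasDerivAt_normsq_line {v w : E} {t : ℝ} :
    HasDerivAt (fun t : ℝ => ‖v + t • w‖ ^ 2) (2 * ⟪v + t • w, w⟫) t := by
  have h1 : HasDerivAt (fun t : ℝ => v + t • w) w t := by
    simpa using ((hasDerivAt_id t).smul_const w).const_add v
  exact h1.norm_sq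

theorem alg1 {t L P Q : ℝ} (ht : 0 ≤ t) (hL : 0 ≤ L) :
    L * (t * (P + Q)) * P + L * (t * P) * P + L * (t * (P + Q)) * Q +
          L * (t * Q) * Q ≤ t * (3 * L * (P ^ 2 + Q ^ 2)) := by
  have h6 : 0 ≤ t * L * (P - Q) ^ 2 := by positivity
  nlinarith only [h6]

set_option maxHeartbeats 1000000 in
theorem strict_min {s : ℝ} (hs : 0 < s) {a : E} (ha : ‖a‖ = 1) {x₀ y₀ x y z : E}
    (hx₀ : ‖x₀‖ ≤ 1 / 8) (hy₀ : ‖y₀ - a‖ ≤ 1 / 8) (hx : ‖x‖ ≤ 1 / 8) (hy : ‖y - a‖ ≤ 1 / 8)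
    (hz : ‖z + a‖ ≤ 1 / 8) (h1 : gX s x₀ y₀ z = 0) (h2 : gY s a x₀ y₀ z = 0)
    (hne : (x, y) ≠ (x₀, y₀)) : Ph s a x₀ y₀ z < Ph s a x y z := by
  set p := x - x₀ with hp
  set q := y - y₀ with hq
  let xt : ℝ → E := fun t => x₀ + t • p
  let yt : ℝ → E := fun t => y₀ + t • q
  have hxt : ∀ t, 0 ≤ t → t ≤ 1 → ‖xt t‖ ≤ 1 / 8 := by
    intro t h0 h1
    have : xt t = (1 - t) • x₀ + t • x := by simp only [xt, hp]; module
    rw [this]
    calc _ ≤ (1 - t) * ‖x₀‖ + t * ‖x‖ := by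
          refine (norm_add_le _ _).trans ?_
          rw [norm_smul, norm_smul, Real.norm_of_nonneg (by linarith), Real.norm_of_nonneg h0]
      _ ≤ (1 - t) * (1 / 8) + t * (1 / 8) := by
          have : 0 ≤ 1 - t := by linarith
          gcongr
      _ = 1 / 8 := by ring
  have hyt : ∀ t, 0 ≤ t → t ≤ 1 → ‖yt t - a‖ ≤ 1 / 8 := by
    intro t h0 h1
    have : yt t - a = (1 - t) • (y₀ - a) + t • (y - a) := by simp only [yt, hq]; module
    rw [this]
    calc _ ≤ (1 - t) * ‖y₀ - a‖ + t * ‖y - a‖ := by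
          refine (norm_add_le _ _).trans ?_
          rw [norm_smul, norm_smul, Real.norm_of_nonneg (by linarith), Real.norm_of_nonneg h0]
      _ ≤ (1 - t) * (1 / 8) + t * (1 / 8) := by
          have : 0 ≤ 1 - t := by linarith
          gcongr
      _ = 1 / 8 := by ring
  -- locations of differences
  have l1 : ∀ x y : E, ‖x‖ ≤ 1 / 8 → ‖y - a‖ ≤ 1 / 8 → ‖(x - y) - (-a)‖ ≤ 1 / 4 := by
    intro x y hx hy
    have : (x - y) - (-a) = x - (y - a) := by abel
    rw [this]; exact (norm_sub_le _ _).trans (by linarith)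
  have l1' : ∀ x y : E, ‖x‖ ≤ 1 / 8 → ‖y - a‖ ≤ 1 / 8 → ‖(y - x) - a‖ ≤ 1 / 4 := by
    intro x y hx hy
    have : (y - x) - a = (y - a) - x := by abel
    rw [this]; exact (norm_sub_le _ _).trans (by linarith)
  have l2 : ∀ x : E, ‖x‖ ≤ 1 / 8 → ‖(x - z) - a‖ ≤ 1 / 4 := by
    intro x hx
    have : (x - z) - a = x - (z + a) := by abel
    rw [this]; exact (norm_sub_le _ _).trans (by linarith)
  have l3 : ∀ y : E, ‖y - a‖ ≤ 1 / 8 → ‖(y - z) - (2:ℝ) • a‖ ≤ 1 / 4 := by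
    intro y hy
    have : (y - z) - (2:ℝ) • a = (y - a) - (z + a) := by rw [two_smul]; abel
    rw [this]; exact (norm_sub_le _ _).trans (by linarith)
  have ha1 : (3:ℝ) / 4 ≤ ‖a‖ := by rw [ha]; norm_num
  have ha2 : (3:ℝ) / 4 ≤ ‖-a‖ := by rw [norm_neg, ha]; norm_num
  have ha3 : (3:ℝ) / 4 ≤ ‖(2:ℝ) • a‖ := by rw [norm_smul, ha]; norm_num
  have nz : ∀ w w₀ : E, 3 / 4 ≤ ‖w₀‖ → ‖w - w₀‖ ≤ 1 / 4 → w ≠ 0 := by
    intro w w₀ h1 h2 h3
    rw [h3, zero_sub, norm_neg] at h2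
    linarith
  -- derivative along the segment
  let D : ℝ → ℝ := fun t => ⟪gX s (xt t) (yt t) z, p⟫ + ⟪gY s a (xt t) (yt t) z, q⟫
  have hder : ∀ t, 0 ≤ t → t ≤ 1 → HasDerivAt (fun t => Ph s a (xt t) (yt t) z) (D t) t := by
    intro t h0 h1
    have e1 : HasDerivAt (fun t : ℝ => phi s (xt t - yt t)) (⟪G s (xt t - yt t), p - q⟫) t := by
      have hne : (x₀ - y₀) + t • (p - q) ≠ 0 := by
        have : (x₀ - y₀) + t • (p - q) = xt t - yt t := by simp only [xt, yt]; module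
        rw [this]
        exact nz _ _ ha2 (l1 _ _ (hxt t h0 h1) (hyt t h0 h1))
      have := hasDerivAt_phi_line s hne
      have e : ∀ t : ℝ, (x₀ - y₀) + t • (p - q) = xt t - yt t := by
        intro t; simp only [xt, yt]; module
      simpa only [e] using this
    have e2 : HasDerivAt (fun t : ℝ => phi s (xt t - z)) (⟪G s (xt t - z), p⟫) t := by
      have e : ∀ t : ℝ, (x₀ - z) + t • p = xt t - z := by
        intro t; simp only [xt]; module
      have hne : (x₀ - z) + t • p ≠ 0 := by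
        rw [e]
        exact nz _ _ ha1 (l2 _ (hxt t h0 h1))
      have := hasDerivAt_phi_line s hne
      simpa only [e] using this
    have e3 : HasDerivAt (fun t : ℝ => phi s (yt t - z)) (⟪G s (yt t - z), q⟫) t := by
      have e : ∀ t : ℝ, (y₀ - z) + t • q = yt t - z := by
        intro t; simp only [yt]; module
      have hne : (y₀ - z) + t • q ≠ 0 := by
        rw [e]
        exact nz _ _ ha3 (l3 _ (hyt t h0 h1))
      have := hasDerivAt_phi_line s hne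
      simpa only [e] using this
    have e4 : HasDerivAt (fun t : ℝ => Kc s / 2 * ‖xt t‖ ^ 2) (Kc s / 2 * (2 * ⟪xt t, p⟫)) t :=
      hasDerivAt_normsq_line.const_mul _
    have e5 : HasDerivAt (fun t : ℝ => xi s * ⟪a, yt t - a⟫) (xi s * ⟪a, q⟫) t := by
      have e : ∀ t : ℝ, xi s * ⟪a, yt t - a⟫ = xi s * ⟪a, y₀ - a⟫ + t * (xi s * ⟪a, q⟫) := by
        intro t
        have : yt t - a = (y₀ - a) + t • q := by simp only [yt]; module
        rw [this, inner_add_right, inner_smul_right]; ring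
      have h := ((hasDerivAt_id t).mul_const (xi s * ⟪a, q⟫)).const_add (xi s * ⟪a, y₀ - a⟫)
      simp only [id_eq, one_mul] at h
      simpa only [e] using h
    have e6 : HasDerivAt (fun t : ℝ => Kc s / 2 * ‖yt t - a‖ ^ 2) (Kc s / 2 * (2 * ⟪yt t - a, q⟫)) t := by
      have e : ∀ t : ℝ, (y₀ - a) + t • q = yt t - a := by
        intro t; simp only [yt]; module
      have := (hasDerivAt_normsq_line (v := y₀ - a) (w := q) (t := t)).const_mul (Kc s / 2)
      simpa only [e] using this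
    have hsum := ((((e1.add e2).add e3).add e4).add e5).add e6
    refine (hsum.congr_deriv ?_)
    simp only [D, gX, gY, inner_add_left, inner_smul_left, RCLike.conj_to_real, inner_sub_right]
    have e7 : G s (yt t - xt t) = - G s (xt t - yt t) := by
      rw [← G_neg, neg_sub]
    rw [e7, inner_neg_left]
    ring
  -- mean value theorem
  obtain ⟨t, ht, hmv⟩ := exists_hasDerivAt_eq_slope (fun t => Ph s a (xt t) (yt t) z) D
    (by norm_num : (0:ℝ) < 1)
    (fun t ht => (hder t ht.1 ht.2).continuousAt.continuousWithinAt)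
    (fun t ht => hder t ht.1.le ht.2.le)
  have hx0 : xt 0 = x₀ := by simp [xt]
  have hy0 : yt 0 = y₀ := by simp [yt]
  have hx1 : xt 1 = x := by simp [xt, hp]
  have hy1 : yt 1 = y := by simp [yt, hq]
  rw [hx0, hy0, hx1, hy1, sub_zero, div_one] at hmv
  have ht0 := ht.1
  have ht1 := ht.2
  have bx := hxt t ht0.le ht1.le
  have bY := hyt t ht0.le ht1.le
  -- monotonicity
  have m1 : ‖G s (xt t - yt t) - G s (x₀ - y₀)‖ ≤ Lam s * (t * (‖p‖ + ‖q‖)) := by
    refine (lipG hs ha2 (l1 _ _ bx bY) (l1 _ _ hx₀ hy₀)).trans ?_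
    gcongr
    · exact (Lam_pos hs).le
    have : xt t - yt t - (x₀ - y₀) = t • (p - q) := by simp only [xt, yt]; module
    rw [this, norm_smul, Real.norm_of_nonneg ht0.le]
    gcongr; exact norm_sub_le _ _
  have m1' : ‖G s (yt t - xt t) - G s (y₀ - x₀)‖ ≤ Lam s * (t * (‖p‖ + ‖q‖)) := by
    have : G s (yt t - xt t) - G s (y₀ - x₀) = -(G s (xt t - yt t) - G s (x₀ - y₀)) := by
      rw [← neg_sub (xt t), ← neg_sub x₀, G_neg, G_neg]; abel
    rw [this, norm_neg]; exact m1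
  have m2 : ‖G s (xt t - z) - G s (x₀ - z)‖ ≤ Lam s * (t * ‖p‖) := by
    refine (lipG hs ha1 (l2 _ bx) (l2 _ hx₀)).trans ?_
    gcongr
    · exact (Lam_pos hs).le
    have : xt t - z - (x₀ - z) = t • p := by simp only [xt]; module
    rw [this, norm_smul, Real.norm_of_nonneg ht0.le]
  have m3 : ‖G s (yt t - z) - G s (y₀ - z)‖ ≤ Lam s * (t * ‖q‖) := by
    refine (lipG hs ha3 (l3 _ bY) (l3 _ hy₀)).trans ?_
    gcongr
    · exact (Lam_pos hs).le
    have : yt t - z - (y₀ - z) = t • q := by simp only [yt]; module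
    rw [this, norm_smul, Real.norm_of_nonneg ht0.le]
  have i1 : ∀ u v : E, ∀ c : ℝ, ‖u‖ ≤ c → -(c * ‖v‖) ≤ ⟪u, v⟫ := by
    intro u v c hc
    have := abs_real_inner_le_norm u v
    have h2 := neg_abs_le (⟪u, v⟫ : ℝ)
    have h3 : ‖u‖ * ‖v‖ ≤ c * ‖v‖ := by gcongr
    linarith
  have hgX : gX s (xt t) (yt t) z = (G s (xt t - yt t) - G s (x₀ - y₀)) + (G s (xt t - z) - G s (x₀ - z)) +
      (Kc s * t) • p := by
    have : gX s (xt t) (yt t) z = gX s (xt t) (yt t) z - gX s x₀ y₀ z := by rw [h1, sub_zero]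
    rw [this]; simp only [gX, xt]; module
  have hgY : gY s a (xt t) (yt t) z = (G s (yt t - xt t) - G s (y₀ - x₀)) + (G s (yt t - z) - G s (y₀ - z)) +
      (Kc s * t) • q := by
    have : gY s a (xt t) (yt t) z = gY s a (xt t) (yt t) z - gY s a x₀ y₀ z := by rw [h2, sub_zero]
    rw [this]; simp only [gY, yt]; module
  have hDt : 0 < D t := by
    have k1 := i1 _ p _ m1
    have k2 := i1 _ p _ m2
    have k3 := i1 _ q _ m1'
    have k4 := i1 _ q _ m3
    have hpq : 0 < ‖p‖ ^ 2 + ‖q‖ ^ 2 := by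
      by_contra hcon
      have hp0 : ‖p‖ = 0 := by nlinarith [norm_nonneg p, norm_nonneg q]
      have hq0 : ‖q‖ = 0 := by nlinarith [norm_nonneg p, norm_nonneg q]
      apply hne
      rw [norm_eq_zero, hp, sub_eq_zero] at hp0
      rw [norm_eq_zero, hq, sub_eq_zero] at hq0
      rw [hp0, hq0]
    have hD : D t = ⟪G s (xt t - yt t) - G s (x₀ - y₀), p⟫ + ⟪G s (xt t - z) - G s (x₀ - z), p⟫ +
        Kc s * t * ‖p‖ ^ 2 + (⟪G s (yt t - xt t) - G s (y₀ - x₀), q⟫ + ⟪G s (yt t - z) - G s (y₀ - z), q⟫ +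
        Kc s * t * ‖q‖ ^ 2) := by
      simp only [D, hgX, hgY]
      rw [inner_add_left, inner_add_left, inner_add_left, inner_add_left, inner_smul_left,
        inner_smul_left, real_inner_self_eq_norm_sq, real_inner_self_eq_norm_sq]
      simp only [RCLike.conj_to_real]
    have hK := Kc_ge hs
    have hL := Lam_pos hs
    have key : D t ≥ t * ((Kc s - 3 * Lam s) * (‖p‖ ^ 2 + ‖q‖ ^ 2)) := by
      rw [hD]
      have h5 : Lam s * (t * (‖p‖ + ‖q‖)) * ‖p‖ + Lam s * (t * ‖p‖) * ‖p‖ + Lam s * (t * (‖p‖ + ‖q‖)) * ‖q‖ +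
          Lam s * (t * ‖q‖) * ‖q‖ ≤ t * (3 * Lam s * (‖p‖ ^ 2 + ‖q‖ ^ 2)) := alg1 ht0.le hL.le
      linarith only [h5, k1, k2, k3, k4]
    have : 0 < t * ((Kc s - 3 * Lam s) * (‖p‖ ^ 2 + ‖q‖ ^ 2)) := by
      have : 0 < Kc s - 3 * Lam s := by linarith
      positivity
    linarith
  linarith

end Crest.Agent.H3.MM
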