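import Crest.Agent.H3.MM.Grad

open Set Filter Topology
open scoped ContDiff RealInnerProductSpace

namespace Crest.Agent.H3.MM

variable {E : Type*} [NormedAddCommGroup E] [InnerProductSpace ℝ E]

noncomputable def FF (s : ℝ) (a : E) (p : E × E × E) : E × E :=
  (gX s p.1 p.2.1 p.2.2, gY s a p.1 p.2.1 p.2.2)

open ContinuousLinearMap in
noncomputable def FF' (s : ℝ) (a : E) : E × E × E →L[ℝ] E × E :=
  ((DG s a).comp (fst ℝ E (E × E) - (fst ℝ E E).comp (snd ℝ E (E × E))) +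
    (DG s a).comp (fst ℝ E (E × E) - (snd ℝ E E).comp (snd ℝ E (E × E))) +
    Kc s • fst ℝ E (E × E)).prod
  ((DG s a).comp ((fst ℝ E E).comp (snd ℝ E (E × E)) - fst ℝ E (E × E)) +
    (DG s ((2:ℝ) • a)).comp ((fst ℝ E E).comp (snd ℝ E (E × E)) - (snd ℝ E E).comp (snd ℝ E (E × E))) +
    Kc s • (fst ℝ E E).comp (snd ℝ E (E × E)))

theorem FF'_apply (s : ℝ) (a h k l : E) : FF' s a (h, k, l) =
    (DG s a (h - k) + DG s a (h - l) + Kc s • h,
      DG s a (k - h) + (2:ℝ) ^ (-s - 2) • DG s a (k - l) + Kc s • k) := by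
  simp only [FF', ContinuousLinearMap.prod_apply, ContinuousLinearMap.add_apply,
    ContinuousLinearMap.comp_apply, ContinuousLinearMap.sub_apply, ContinuousLinearMap.smul_apply,
    ContinuousLinearMap.coe_fst', ContinuousLinearMap.coe_snd', DG_two_smul]

theorem hasFDerivAt_FF (s : ℝ) {a : E} (ha : ‖a‖ = 1) :
    HasFDerivAt (FF s a) (FF' s a) (0, a, -a) := by
  have ha0 : a ≠ 0 := by rw [← norm_pos_iff, ha]; norm_num
  have p1 : HasFDerivAt (fun p : E × E × E => p.1) (ContinuousLinearMap.fst ℝ E (E × E)) (0, a, -a) :=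
    hasFDerivAt_fst
  have p2 : HasFDerivAt (fun p : E × E × E => p.2.1)
      ((ContinuousLinearMap.fst ℝ E E).comp (ContinuousLinearMap.snd ℝ E (E × E))) (0, a, -a) :=
    hasFDerivAt_fst.comp _ hasFDerivAt_snd
  have p3 : HasFDerivAt (fun p : E × E × E => p.2.2)
      ((ContinuousLinearMap.snd ℝ E E).comp (ContinuousLinearMap.snd ℝ E (E × E))) (0, a, -a) :=
    hasFDerivAt_snd.comp _ hasFDerivAt_snd
  have q1 : HasFDerivAt (fun p : E × E × E => G s (p.1 - p.2.1))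
      ((DG s a).comp (ContinuousLinearMap.fst ℝ E (E × E) -
        (ContinuousLinearMap.fst ℝ E E).comp (ContinuousLinearMap.snd ℝ E (E × E)))) (0, a, -a) := by
    have h : HasFDerivAt (G s) (DG s a) ((0:E) - a) := by
      rw [← DG_neg, zero_sub]
      exact hasFDerivAt_G s (neg_ne_zero.2 ha0)
    exact h.comp (0, a, -a) (p1.sub p2)
  have q2 : HasFDerivAt (fun p : E × E × E => G s (p.1 - p.2.2))
      ((DG s a).comp (ContinuousLinearMap.fst ℝ E (E × E) -
        (ContinuousLinearMap.snd ℝ E E).comp (ContinuousLinearMap.snd ℝ E (E × E)))) (0, a, -a) := by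
    have h : HasFDerivAt (G s) (DG s a) ((0:E) - -a) := by
      rw [zero_sub, neg_neg]
      exact hasFDerivAt_G s ha0
    exact h.comp (0, a, -a) (p1.sub p3)
  have q3 : HasFDerivAt (fun p : E × E × E => G s (p.2.1 - p.1))
      ((DG s a).comp ((ContinuousLinearMap.fst ℝ E E).comp (ContinuousLinearMap.snd ℝ E (E × E)) -
        ContinuousLinearMap.fst ℝ E (E × E))) (0, a, -a) := by
    have h : HasFDerivAt (G s) (DG s a) (a - (0:E)) := by
      rw [sub_zero]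
      exact hasFDerivAt_G s ha0
    exact h.comp (0, a, -a) (p2.sub p1)
  have q4 : HasFDerivAt (fun p : E × E × E => G s (p.2.1 - p.2.2))
      ((DG s ((2:ℝ) • a)).comp ((ContinuousLinearMap.fst ℝ E E).comp (ContinuousLinearMap.snd ℝ E (E × E)) -
        (ContinuousLinearMap.snd ℝ E E).comp (ContinuousLinearMap.snd ℝ E (E × E)))) (0, a, -a) := by
    have h : HasFDerivAt (G s) (DG s ((2:ℝ) • a)) (a - -a) := by
      rw [sub_neg_eq_add, ← two_smul ℝ a]
      exact hasFDerivAt_G s (smul_ne_zero two_ne_zero ha0)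
    exact h.comp (0, a, -a) (p2.sub p3)
  have r1 := (q1.add q2).add (p1.const_smul (Kc s))
  have r2 := ((q3.add q4).add_const (xi s • a)).add ((p2.sub_const a).const_smul (Kc s))
  exact r1.prodMk r2

theorem contDiffAt_FF (s : ℝ) {a : E} (ha : ‖a‖ = 1) {n : WithTop ℕ∞} :
    ContDiffAt ℝ n (FF s a) (0, a, -a) := by
  have ha0 : a ≠ 0 := by rw [← norm_pos_iff, ha]; norm_num
  have p1 : ContDiffAt ℝ n (fun p : E × E × E => p.1) (0, a, -a) := contDiffAt_fst
  have p2 : ContDiffAt ℝ n (fun p : E × E × E => p.2.1) (0, a, -a) :=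
    contDiffAt_fst.comp _ contDiffAt_snd
  have p3 : ContDiffAt ℝ n (fun p : E × E × E => p.2.2) (0, a, -a) :=
    contDiffAt_snd.comp _ contDiffAt_snd
  have q1 : ContDiffAt ℝ n (fun p : E × E × E => G s (p.1 - p.2.1)) (0, a, -a) := by
    have h : ContDiffAt ℝ n (G s) ((0:E) - a) := contDiffAt_G s (by simpa using ha0)
    exact h.comp (0, a, -a) (p1.sub p2)
  have q2 : ContDiffAt ℝ n (fun p : E × E × E => G s (p.1 - p.2.2)) (0, a, -a) := by
    have h : ContDiffAt ℝ n (G s) ((0:E) - -a) := contDiffAt_G s (by simpa using ha0)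
    exact h.comp (0, a, -a) (p1.sub p3)
  have q3 : ContDiffAt ℝ n (fun p : E × E × E => G s (p.2.1 - p.1)) (0, a, -a) := by
    have h : ContDiffAt ℝ n (G s) (a - (0:E)) := contDiffAt_G s (by simpa using ha0)
    exact h.comp (0, a, -a) (p2.sub p1)
  have q4 : ContDiffAt ℝ n (fun p : E × E × E => G s (p.2.1 - p.2.2)) (0, a, -a) := by
    have h : ContDiffAt ℝ n (G s) (a - -a) := contDiffAt_G s (by
      rw [sub_neg_eq_add, ← two_smul ℝ a]; exact smul_ne_zero two_ne_zero ha0)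
    exact h.comp (0, a, -a) (p2.sub p3)
  have r1 : ContDiffAt ℝ n (fun p : E × E × E => gX s p.1 p.2.1 p.2.2) (0, a, -a) :=
    (q1.add q2).add (contDiffAt_const.smul p1)
  have r2 : ContDiffAt ℝ n (fun p : E × E × E => gY s a p.1 p.2.1 p.2.2) (0, a, -a) :=
    ((q3.add q4).add contDiffAt_const).add (contDiffAt_const.smul (p2.sub contDiffAt_const))
  exact r1.prodMk r2

theorem smul_DG_bound {s : ℝ} (hs : 0 < s) {a : E} (ha : ‖a‖ = 1) (v : E) : ‖DG s a v‖ ≤ Lam s * ‖v‖ :=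
  (ContinuousLinearMap.le_opNorm _ _).trans (by
    gcongr; exact norm_DG_le hs (by rw [ha]; norm_num))

theorem kappa_bounds {s : ℝ} (hs : 0 < s) : 0 < (2:ℝ) ^ (-s - 2) ∧ (2:ℝ) ^ (-s - 2) ≤ 1 / 4 := by
  refine ⟨Real.rpow_pos_of_pos (by norm_num) _, ?_⟩
  have : (1:ℝ) / 4 = 2 ^ (-2 : ℝ) := by
    rw [Real.rpow_neg (by norm_num)]; norm_num
  rw [this]
  exact Real.rpow_le_rpow_of_exponent_le (by norm_num) (by linarith)

theorem inj_kl {s : ℝ} (hs : 0 < s) {a : E} (ha : ‖a‖ = 1) {k l : E} (h : FF' s a (0, k, l) = 0) :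
    k = 0 ∧ l = 0 := by
  have ha0 : a ≠ 0 := by rw [← norm_pos_iff, ha]; norm_num
  rw [FF'_apply, Prod.mk_eq_zero] at h
  obtain ⟨h1, h2⟩ := h
  obtain ⟨hk0, hk1⟩ := kappa_bounds hs
  have hK := Kc_ge hs
  have hL := Lam_pos hs
  have h3 : DG s a (k + l) = 0 := by
    have : DG s a (k + l) = -(DG s a (0 - k) + DG s a (0 - l) + Kc s • (0:E)) := by
      simp only [zero_sub, map_neg, map_add, smul_zero]; abel
    rw [this, h1, neg_zero]
  have h4 : l = -k := by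
    have := DG_injective hs ha0 h3
    exact (neg_eq_of_add_eq_zero_right this).symm
  subst h4
  have h5 : Kc s • k = -((1 + 2 * (2:ℝ) ^ (-s - 2)) • DG s a k) := by
    have e : DG s a (k - 0) + (2:ℝ) ^ (-s - 2) • DG s a (k - -k) + Kc s • k =
        (1 + 2 * (2:ℝ) ^ (-s - 2)) • DG s a k + Kc s • k := by
      rw [sub_zero, sub_neg_eq_add, map_add]; module
    rw [e] at h2
    exact (neg_eq_of_add_eq_zero_right h2).symm
  have h6 : Kc s * ‖k‖ ≤ 3 / 2 * (Lam s * ‖k‖) := by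
    calc Kc s * ‖k‖ = ‖Kc s • k‖ := by
          rw [norm_smul, Real.norm_of_nonneg (by linarith)]
      _ = (1 + 2 * (2:ℝ) ^ (-s - 2)) * ‖DG s a k‖ := by
          rw [h5, norm_neg, norm_smul, Real.norm_of_nonneg (by linarith)]
      _ ≤ 3 / 2 * (Lam s * ‖k‖) := by
          have := smul_DG_bound hs ha k
          gcongr; linarith
  have h7 : ‖k‖ = 0 := by
    by_contra hne
    have : 0 < ‖k‖ := lt_of_le_of_ne (norm_nonneg _) (Ne.symm hne)
    nlinarith
  rw [norm_eq_zero] at h7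
  subst h7
  simp

theorem inj_h_of_k {s : ℝ} (hs : 0 < s) {a : E} (ha : ‖a‖ = 1) {h l : E} (hh : FF' s a (h, 0, l) = 0) :
    h = 0 := by
  have ha0 : a ≠ 0 := by rw [← norm_pos_iff, ha]; norm_num
  rw [FF'_apply, Prod.mk_eq_zero] at hh
  obtain ⟨h1, h2⟩ := hh
  obtain ⟨hk0, hk1⟩ := kappa_bounds hs
  have hL := Lam_pos hs
  have h3 : DG s a (h + (2:ℝ) ^ (-s - 2) • l) = 0 := by
    have : DG s a (h + (2:ℝ) ^ (-s - 2) • l) =
      -(DG s a (0 - h) + (2:ℝ) ^ (-s - 2) • DG s a (0 - l) + Kc s • (0:E)) := by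
      simp only [zero_sub, map_neg, map_add, smul_zero, smul_neg, map_smul]; abel
    rw [this, h2, neg_zero]
  have h4 : h = -((2:ℝ) ^ (-s - 2) • l) := by
    have := DG_injective hs ha0 h3
    exact eq_neg_of_add_eq_zero_left this
  have hi : ((2:ℝ) ^ (-s - 2))⁻¹ = 2 ^ (s + 2) := by
    rw [← Real.rpow_neg (by norm_num)]; congr 1; ring
  have h5 : l = -((2:ℝ) ^ (s + 2) • h) := by
    rw [h4, smul_neg, neg_neg, smul_smul, ← hi, inv_mul_cancel₀ hk0.ne', one_smul]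
  have h6 : Kc s • h = -((2 + (2:ℝ) ^ (s + 2)) • DG s a h) := by
    have e : DG s a (h - 0) + DG s a (h - l) + Kc s • h =
        (2 + (2:ℝ) ^ (s + 2)) • DG s a h + Kc s • h := by
      rw [h5, sub_zero, sub_neg_eq_add, map_add, map_smul]; module
    rw [e] at h1
    exact (neg_eq_of_add_eq_zero_right h1).symm
  have hp : (0:ℝ) < 2 ^ (s + 2) := Real.rpow_pos_of_pos (by norm_num) _
  have hKd : Kc s = (3 + 2 ^ (s + 2)) * Lam s + 1 := rfl
  have h7 : Kc s * ‖h‖ ≤ (2 + (2:ℝ) ^ (s + 2)) * (Lam s * ‖h‖) := by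
    calc Kc s * ‖h‖ = ‖Kc s • h‖ := by
          rw [norm_smul, Real.norm_of_nonneg (by rw [hKd]; positivity)]
      _ = (2 + (2:ℝ) ^ (s + 2)) * ‖DG s a h‖ := by
          rw [h6, norm_neg, norm_smul, Real.norm_of_nonneg (by positivity)]
      _ ≤ _ := by
          have := smul_DG_bound hs ha h
          gcongr
  by_contra hne
  have hpos : 0 < ‖h‖ := norm_pos_iff.2 hne
  rw [hKd] at h7
  have : 0 < (Lam s + 1) * ‖h‖ := by positivity
  nlinarith

theorem inj_h_of_l {s : ℝ} (hs : 0 < s) {a : E} (ha : ‖a‖ = 1) {h k : E} (hh : FF' s a (h, k, 0) = 0) :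
    h = 0 := by
  rw [FF'_apply, Prod.mk_eq_zero] at hh
  obtain ⟨h1, h2⟩ := hh
  obtain ⟨hk0, hk1⟩ := kappa_bounds hs
  have hL := Lam_pos hs
  have hK := Kc_ge hs
  have h3 : Kc s • k = DG s a h - (1 + (2:ℝ) ^ (-s - 2)) • DG s a k := by
    have e : DG s a (k - h) + (2:ℝ) ^ (-s - 2) • DG s a (k - 0) + Kc s • k =
        Kc s • k - (DG s a h - (1 + (2:ℝ) ^ (-s - 2)) • DG s a k) := by
      rw [sub_zero, map_sub]; module
    rw [e] at h2
    exact sub_eq_zero.1 h2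
  have h4 : Kc s • h = DG s a k - (2:ℝ) • DG s a h := by
    have e : DG s a (h - k) + DG s a (h - 0) + Kc s • h =
        Kc s • h - (DG s a k - (2:ℝ) • DG s a h) := by
      rw [sub_zero, map_sub]; module
    rw [e] at h1
    exact sub_eq_zero.1 h1
  have b1 := smul_DG_bound hs ha h
  have b2 := smul_DG_bound hs ha k
  have h5 : Kc s * ‖k‖ ≤ Lam s * ‖h‖ + 5 / 4 * (Lam s * ‖k‖) := by
    calc Kc s * ‖k‖ = ‖Kc s • k‖ := by
          rw [norm_smul, Real.norm_of_nonneg (by linarith)]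
      _ ≤ ‖DG s a h‖ + ‖(1 + (2:ℝ) ^ (-s - 2)) • DG s a k‖ := by rw [h3]; exact norm_sub_le _ _
      _ = ‖DG s a h‖ + (1 + (2:ℝ) ^ (-s - 2)) * ‖DG s a k‖ := by
          rw [norm_smul, Real.norm_of_nonneg (by linarith : 0 ≤ 1 + (2:ℝ) ^ (-s - 2))]
      _ ≤ _ := by gcongr; linarith
  have h6 : Kc s * ‖h‖ ≤ Lam s * ‖k‖ + 2 * (Lam s * ‖h‖) := by
    calc Kc s * ‖h‖ = ‖Kc s • h‖ := by
          rw [norm_smul, Real.norm_of_nonneg (by linarith)]
      _ ≤ ‖DG s a k‖ + ‖(2:ℝ) • DG s a h‖ := by rw [h4]; exact norm_sub_le _ _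
      _ = ‖DG s a k‖ + 2 * ‖DG s a h‖ := by
          rw [norm_smul, Real.norm_of_nonneg (by norm_num : (0:ℝ) ≤ 2)]
      _ ≤ _ := by gcongr
  by_contra hne
  have hpos : 0 < ‖h‖ := norm_pos_iff.2 hne
  have hkn := norm_nonneg k
  -- ‖k‖ ≤ ‖h‖ 
  have h7 : ‖k‖ ≤ ‖h‖ := by
    have : (3 * Lam s + 1) * ‖k‖ ≤ Kc s * ‖k‖ := by gcongr
    have h8 : (Lam s) * ‖k‖ ≤ Lam s * ‖h‖ := by nlinarith
    exact le_of_mul_le_mul_left h8 hL
  have : (3 * Lam s + 1) * ‖h‖ ≤ Kc s * ‖h‖ := by gcongr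
  have h9 : Lam s * ‖k‖ ≤ Lam s * ‖h‖ := by gcongr
  nlinarith

variable [FiniteDimensional ℝ E]

theorem equiv_of_inj {V : Type*} [NormedAddCommGroup V] [NormedSpace ℝ V] [FiniteDimensional ℝ V]
    (A : V →L[ℝ] V) (h : ∀ v, A v = 0 → v = 0) : ∃ B : V ≃L[ℝ] V, (B : V →L[ℝ] V) = A := by
  have hinj : Function.Injective (A : V →ₗ[ℝ] V) := by
    rw [injective_iff_map_eq_zero]; exact h
  refine ⟨(LinearEquiv.ofInjectiveEndo (A : V →ₗ[ℝ] V) hinj).toContinuousLinearEquiv, ?_⟩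
  ext v; rfl

theorem exists_fg {s : ℝ} (hs : 0 < s) {a : E} (ha : ‖a‖ = 1) :
    ∃ f g : E → E, ContDiffAt ℝ ω f 0 ∧ ContDiffAt ℝ ω g 0 ∧ f 0 = a ∧ g 0 = -a ∧
      (∀ᶠ x in 𝓝 (0:E), gX s x (f x) (g x) = 0 ∧ gY s a x (f x) (g x) = 0) ∧
      (∃ f' : E ≃L[ℝ] E, HasFDerivAt f (f' : E →L[ℝ] E) 0) ∧
      (∃ g' : E ≃L[ℝ] E, HasFDerivAt g (g' : E →L[ℝ] E) 0) := by
  have hcd : ContDiffAt ℝ ω (FF s a) ((0:E), (a, -a)) := contDiffAt_FF s ha
  have hfd := hasFDerivAt_FF s ha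
  have hinv : (fderiv ℝ (FF s a) (0, a, -a) ∘L .inr ℝ E (E × E)).IsInvertible := by
    rw [hfd.fderiv]
    obtain ⟨B, hB⟩ := equiv_of_inj (FF' s a ∘L .inr ℝ E (E × E)) (by
      rintro ⟨k, l⟩ h
      have := inj_kl hs ha (k := k) (l := l) (by simpa using h)
      rw [this.1, this.2]; rfl)
    exact ⟨B, hB⟩
  set ψ := hcd.implicitFunction (by simp) hinv with hψ
  have h1 : ContDiffAt ℝ ω ψ 0 := hcd.contDiffAt_implicitFunction (by simp) hinv
  have h2 : ψ 0 = (a, -a) := hcd.implicitFunction_apply_self (by simp) hinv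
  have hbase : FF s a (0, a, -a) = 0 := by
    simp only [FF, gX_base, gY_base ha]; rfl
  have h3 : ∀ᶠ x in 𝓝 (0:E), FF s a (x, ψ x) = 0 := by
    have := hcd.eventually_apply_implicitFunction (by simp) hinv
    rw [hbase] at this
    exact this
  have h4 : HasFDerivAt ψ (fderiv ℝ ψ 0) 0 := (h1.differentiableAt (by simp)).hasFDerivAt
  set ψ' := fderiv ℝ ψ 0
  have h5 : ∀ h : E, FF' s a (h, ψ' h) = 0 := by
    have e1 : HasFDerivAt (fun x => FF s a (x, ψ x)) ((FF' s a).comp ((ContinuousLinearMap.id ℝ E).prod ψ')) 0 := by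
      have e2 : HasFDerivAt (fun x : E => (x, ψ x)) ((ContinuousLinearMap.id ℝ E).prod ψ') 0 :=
        (hasFDerivAt_id (0:E)).prodMk h4
      have e3 : HasFDerivAt (FF s a) (FF' s a) ((0:E), ψ 0) := by rw [h2]; exact hfd
      exact e3.comp (0:E) e2
    have e4 : HasFDerivAt (fun x => FF s a (x, ψ x)) (0 : E →L[ℝ] E × E) 0 :=
      (hasFDerivAt_const (0 : E × E) (0:E)).congr_of_eventuallyEq h3
    have e5 := e1.unique e4
    intro h
    have := DFunLike.congr_fun e5 h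
    simpa using this
  refine ⟨fun x => (ψ x).1, fun x => (ψ x).2, contDiffAt_fst.comp _ h1, contDiffAt_snd.comp _ h1,
    by show (ψ 0).1 = a; rw [h2], by show (ψ 0).2 = -a; rw [h2], ?_, ?_, ?_⟩
  · filter_upwards [h3] with x hx
    simp only [FF, Prod.mk_eq_zero] at hx
    exact hx
  · obtain ⟨B, hB⟩ := equiv_of_inj ((ContinuousLinearMap.fst ℝ E E).comp ψ') (by
      intro v hv
      simp only [ContinuousLinearMap.comp_apply, ContinuousLinearMap.coe_fst'] at hv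
      have := h5 v
      rw [← Prod.mk.eta (p := ψ' v), hv] at this
      exact inj_h_of_k hs ha this)
    refine ⟨B, ?_⟩
    rw [hB]
    exact hasFDerivAt_fst.comp _ h4
  · obtain ⟨B, hB⟩ := equiv_of_inj ((ContinuousLinearMap.snd ℝ E E).comp ψ') (by
      intro v hv
      simp only [ContinuousLinearMap.comp_apply, ContinuousLinearMap.coe_snd'] at hv
      have := h5 v
      rw [← Prod.mk.eta (p := ψ' v), hv] at this
      exact inj_h_of_l hs ha this)
    refine ⟨B, ?_⟩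
    rw [hB]
    exact hasFDerivAt_snd.comp _ h4

theorem contDiff_det {n : WithTop ℕ∞} : ContDiff ℝ n (fun A : E →L[ℝ] E => A.det) := by
  classical
  let b := Module.finBasis ℝ E
  have h : ∀ A : E →L[ℝ] E, A.det = ∑ σ : Equiv.Perm (Fin (Module.finrank ℝ E)),
      ((Equiv.Perm.sign σ : ℤ) : ℝ) * ∏ i, b.coord (σ i) (A (b i)) := by
    intro A
    rw [ContinuousLinearMap.det, ← LinearMap.det_toMatrix b, Matrix.det_apply']
    simp only [LinearMap.toMatrix_apply, Module.Basis.coord_apply]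
    rfl
  simp_rw [h]
  refine ContDiff.sum fun σ _ => contDiff_const.mul (contDiff_prod fun i _ => ?_)
  exact ((LinearMap.toContinuousLinearMap (b.coord (σ i))).comp
    (ContinuousLinearMap.apply ℝ E (b i))).contDiff

theorem exists_chart {f : E → E} (hf : ContDiffAt ℝ ω f 0) (f' : E ≃L[ℝ] E)
    (hf' : HasFDerivAt f (f' : E →L[ℝ] E) 0) :
    ∃ fi : E → E, ∀ᶠ x in 𝓝 (0:E), ContDiffAt ℝ ∞ f x ∧ fi (f x) = x ∧ ContDiffAt ℝ ∞ fi (f x) ∧
      (fderiv ℝ f x).det ≠ 0 ∧ ∀ᶠ y in 𝓝 (f x), f (fi y) = y := by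
  have hst := hf.hasStrictFDerivAt' hf' (by simp)
  refine ⟨hf.localInverse hf' (by simp), ?_⟩
  have h1 : ∀ᶠ x in 𝓝 (0:E), ContDiffAt ℝ ω f x := hf.eventually (by simp)
  have h2 : ∀ᶠ x in 𝓝 (0:E), hf.localInverse hf' (by simp) (f x) = x := hst.eventually_left_inverse
  have h3 : ∀ᶠ y in 𝓝 (f 0), ContDiffAt ℝ ω (hf.localInverse hf' (by simp)) y :=
    (hf.to_localInverse hf' (by simp)).eventually (by simp)
  have h4 : ∀ᶠ x in 𝓝 (0:E), ContDiffAt ℝ ω (hf.localInverse hf' (by simp)) (f x) :=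
    hf.continuousAt.eventually h3
  have h5 : ContinuousAt (fun x => (fderiv ℝ f x).det) 0 := by
    have : ContDiffAt ℝ 0 (fderiv ℝ f) 0 := hf.fderiv_right (by simp)
    exact ContinuousLinearMap.continuous_det.continuousAt.comp this.continuousAt
  have h6 : (fderiv ℝ f 0).det ≠ 0 := by
    rw [hf'.fderiv]
    exact (LinearEquiv.isUnit_det' f'.toLinearEquiv).ne_zero
  have h7 : ∀ᶠ y in 𝓝 (f 0), f (hf.localInverse hf' (by simp) y) = y := hst.eventually_right_inverse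
  have h8 := hf.continuousAt.eventually (eventually_eventually_nhds.2 h7)
  filter_upwards [h1, h2, h4, h5.eventually_ne h6, h8] with x a1 a2 a3 a4 a5
  exact ⟨a1.of_le (by simp), a2, a3.of_le (by simp), a4, a5⟩

end Crest.Agent.H3.MM
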