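import Mathlib

open MeasureTheory ProbabilityTheory Set Filter Topology
open scoped ENNReal unitInterval

namespace Crest.Agent.H3.MM

theorem cdf_continuous (ν : Measure ℝ) [IsProbabilityMeasure ν] (h : ∀ x, ν {x} = 0) :
    Continuous (cdf ν) := by
  rw [continuous_iff_continuousAt]
  intro x
  rw [(monotone_cdf ν).continuousAt_iff_leftLim_eq_rightLim]
  have h1 : (cdf ν).measure {x} = 0 := by rw [measure_cdf]; exact h x
  rw [StieltjesFunction.measure_singleton] at h1
  have h2 : cdf ν x ≤ Function.leftLim (cdf ν) x := by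
    rw [ENNReal.ofReal_eq_zero] at h1
    linarith
  have h3 : Function.leftLim (cdf ν) x ≤ cdf ν x := (monotone_cdf ν).leftLim_le le_rfl
  rw [StieltjesFunction.rightLim_eq]
  exact le_antisymm h3 h2

theorem cdf_surj (ν : Measure ℝ) [IsProbabilityMeasure ν] (h : ∀ x, ν {x} = 0) {t : ℝ}
    (h0 : 0 < t) (h1 : t < 1) : ∃ x, cdf ν x = t := by
  have hc := cdf_continuous ν h
  have hbot := tendsto_cdf_atBot ν
  have htop := tendsto_cdf_atTop ν
  obtain ⟨a, ha⟩ := (hbot.eventually (gt_mem_nhds h0)).exists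
  obtain ⟨b, hb⟩ := (htop.eventually (lt_mem_nhds h1)).exists
  obtain ⟨x, hx⟩ := mem_range_of_exists_le_of_exists_ge hc ⟨a, ha.le⟩ ⟨b, hb.le⟩
  exact ⟨x, hx⟩

theorem measure_cdf_le (ν : Measure ℝ) [IsProbabilityMeasure ν] (h : ∀ x, ν {x} = 0) {t : ℝ}
    (h0 : 0 ≤ t) (h1 : t ≤ 1) : ν {x | cdf ν x ≤ t} = ENNReal.ofReal t := by
  have hmeas : MeasurableSet {x | cdf ν x ≤ t} :=
    measurableSet_le (monotone_cdf ν).measurable measurable_const
  have hIic : ∀ x, ν (Iic x) = ENNReal.ofReal (cdf ν x) := fun x => by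
    rw [cdf_eq_real, ofReal_measureReal]
  -- lower bound
  have hlow : ENNReal.ofReal t ≤ ν {x | cdf ν x ≤ t} := by
    rcases h0.eq_or_lt with h0 | h0
    · rw [← h0]; simp
    rcases h1.eq_or_lt with h1 | h1
    · have : {x | cdf ν x ≤ t} = univ := by
        ext x; simp [h1, cdf_le_one]
      rw [this, h1]; simp
    obtain ⟨x, hx⟩ := cdf_surj ν h h0 h1
    calc ENNReal.ofReal t = ν (Iic x) := by rw [hIic, hx]
      _ ≤ _ := measure_mono fun y hy => by
        have := monotone_cdf ν (show y ≤ x from hy)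
        show cdf ν y ≤ t
        rw [hx] at this; exact this
  have hup : ENNReal.ofReal (1 - t) ≤ ν {x | cdf ν x ≤ t}ᶜ := by
    refine ENNReal.le_of_forall_pos_le_add ?_
    intro ε hε _
    rcases le_or_gt (1 - t) ε with hle | hlt
    · calc ENNReal.ofReal (1 - t) ≤ ENNReal.ofReal ε := ENNReal.ofReal_le_ofReal hle
        _ = ε := ENNReal.ofReal_coe_nnreal
        _ ≤ _ := le_add_self
    have hε' : (0:ℝ) < ε := hε
    have h2 : t + ε < 1 := by linarith
    obtain ⟨x, hx⟩ := cdf_surj ν h (t := t + ε) (by linarith) h2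
    have h3 : ν (Ioi x) ≤ ν {x | cdf ν x ≤ t}ᶜ := measure_mono fun y hy => by
      have := monotone_cdf ν (show x ≤ y from le_of_lt hy)
      show ¬ (cdf ν y ≤ t)
      rw [hx] at this
      push Not
      linarith
    have h4 : ν (Ioi x) = ENNReal.ofReal (1 - (t + ε)) := by
      rw [← compl_Iic, prob_compl_eq_one_sub measurableSet_Iic, hIic, hx,
        ENNReal.ofReal_sub _ (by linarith), ENNReal.ofReal_one]
    calc ENNReal.ofReal (1 - t) = ENNReal.ofReal ((1 - (t + ε)) + ε) := by congr 1; ring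
      _ = ENNReal.ofReal (1 - (t + ε)) + ENNReal.ofReal ε :=
        ENNReal.ofReal_add (by linarith) hε'.le
      _ ≤ _ := by
        rw [ENNReal.ofReal_coe_nnreal, ← h4]
        gcongr
  have hsum : ν {x | cdf ν x ≤ t} + ν {x | cdf ν x ≤ t}ᶜ = 1 := by
    rw [measure_add_measure_compl hmeas, measure_univ]
  refine le_antisymm ?_ hlow
  have h5 : ν {x | cdf ν x ≤ t} + ENNReal.ofReal (1 - t) ≤ ENNReal.ofReal t + ENNReal.ofReal (1 - t) := by
    rw [← ENNReal.ofReal_add h0 (by linarith)]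
    calc _ ≤ ν {x | cdf ν x ≤ t} + ν {x | cdf ν x ≤ t}ᶜ := by gcongr
      _ = 1 := hsum
      _ = _ := by simp
  exact (ENNReal.add_le_add_iff_right ENNReal.ofReal_ne_top).1 h5

theorem exists_to_unitInterval {X : Type*} [MeasurableSpace X] [StandardBorelSpace X]
    (μ : Measure X) [IsProbabilityMeasure μ] [NullSingletonClass μ] :
    ∃ f : X → I, Measurable f ∧ μ.map f = volume := by
  set e := embeddingReal X with he
  have hem : MeasurableEmbedding e := measurableEmbedding_embeddingReal X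
  set ν := μ.map e with hν
  haveI : IsProbabilityMeasure ν := Measure.isProbabilityMeasure_map hem.measurable.aemeasurable
  have hat : ∀ x, ν {x} = 0 := by
    intro x
    rw [hν, hem.map_apply]
    exact (Set.subsingleton_singleton.preimage hem.injective).measure_zero μ
  let F : X → I := fun x => ⟨cdf ν (e x), cdf_nonneg ν _, cdf_le_one ν _⟩
  have hF : Measurable F := by
    refine Measurable.subtype_mk ?_
    exact (monotone_cdf ν).measurable.comp hem.measurable
  haveI : IsProbabilityMeasure (μ.map F) := Measure.isProbabilityMeasure_map hF.aemeasurable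
  refine ⟨F, hF, Measure.ext_of_Iic _ _ fun t => ?_⟩
  rw [Measure.map_apply hF measurableSet_Iic, unitInterval.volume_Iic]
  have h1 : F ⁻¹' Iic t = e ⁻¹' {x | cdf ν x ≤ t} := by
    ext x
    simp only [mem_preimage, mem_Iic, mem_setOf_eq]
    rfl
  rw [h1, ← hem.map_apply, ← hν]
  exact measure_cdf_le ν hat t.2.1 t.2.2

theorem exists_map_of_mass {X Y : Type*} [MeasurableSpace X] [StandardBorelSpace X]
    [MeasurableSpace Y] [StandardBorelSpace Y] [Nonempty Y]
    (μ : Measure X) [IsFiniteMeasure μ] [NullSingletonClass μ] (ν : Measure Y)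
    (h : μ univ = ν univ) : ∃ T : X → Y, Measurable T ∧ μ.map T = ν := by
  by_cases h0 : μ univ = 0
  · refine ⟨fun _ => Classical.arbitrary Y, measurable_const, ?_⟩
    have h1 : μ = 0 := Measure.measure_univ_eq_zero.1 h0
    have h2 : ν = 0 := Measure.measure_univ_eq_zero.1 (h ▸ h0)
    rw [h1, h2]; simp
  set c := μ univ with hc
  have hct : c ≠ ⊤ := measure_ne_top μ _
  haveI : IsProbabilityMeasure (c⁻¹ • μ) := ⟨by
    rw [Measure.smul_apply, smul_eq_mul, ← hc]; exact ENNReal.inv_mul_cancel h0 hct⟩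
  haveI : IsProbabilityMeasure (c⁻¹ • ν) := ⟨by
    rw [Measure.smul_apply, smul_eq_mul, ← h]; exact ENNReal.inv_mul_cancel h0 hct⟩
  haveI : NullSingletonClass (c⁻¹ • μ) := ⟨fun x => by
    rw [Measure.smul_apply, measure_singleton, smul_zero]⟩
  obtain ⟨f, hf, hf2⟩ := exists_to_unitInterval (c⁻¹ • μ)
  obtain ⟨g, hg, hg2⟩ := (c⁻¹ • ν).exists_measurable_map_eq
  refine ⟨g ∘ f, hg.comp hf, ?_⟩
  have h3 : (c⁻¹ • μ).map (g ∘ f) = c⁻¹ • ν := by
    rw [← Measure.map_map hg hf, hf2, hg2]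
  have h4 : c • (c⁻¹ • μ).map (g ∘ f) = c • c⁻¹ • ν := by rw [h3]
  rw [Measure.map_smul, smul_smul, smul_smul, ENNReal.mul_inv_cancel h0 hct, one_smul, one_smul] at h4
  exact h4

end Crest.Agent.H3.MM
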