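import Crest.Agent.H3.MM.Build
import Crest.Agent.H3.MM.Approx

open Set Filter Topology MeasureTheory
open scoped ContDiff RealInnerProductSpace ENNReal
open Crest.AnalysisR.OT

namespace Crest.Agent.H3.MM

variable {E : Type*} [NormedAddCommGroup E] [InnerProductSpace ℝ E]
variable [FiniteDimensional ℝ E] [MeasurableSpace E] [BorelSpace E]
variable {s : ℝ} (D : Data s E) (m : Measure E)

noncomputable def mu : Measure E :=
  (6:ℝ≥0∞)⁻¹ • ∑ i : Bool, (m + m.map (D.P (i, false)) + m.map (D.P (i, true)))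

noncomputable def pi0 : Measure (E × E × E) :=
  (6:ℝ≥0∞)⁻¹ • ∑ i : Bool, (m.map (fun b => (b, D.P (i, false) b, D.P (i, true) b)) +
    m.map (fun b => (D.P (i, false) b, D.P (i, true) b, b)) +
    m.map (fun b => (D.P (i, true) b, b, D.P (i, false) b)))

theorem meas1 (i : Bool) : Measurable (fun b => (b, D.P (i, false) b, D.P (i, true) b)) :=
  measurable_id.prodMk ((D.Pm _).prodMk (D.Pm _))
theorem meas2 (i : Bool) : Measurable (fun b => (D.P (i, false) b, D.P (i, true) b, b)) :=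
  (D.Pm _).prodMk ((D.Pm _).prodMk measurable_id)
theorem meas3 (i : Bool) : Measurable (fun b => (D.P (i, true) b, b, D.P (i, false) b)) :=
  (D.Pm _).prodMk (measurable_id.prodMk (D.Pm _))

theorem mu_apply {A : Set E} (hA : MeasurableSet A) : mu D m A =
    6⁻¹ * ∑ i : Bool, (m A + m (D.P (i, false) ⁻¹' A) + m (D.P (i, true) ⁻¹' A)) := by
  simp only [mu, Measure.smul_apply, Measure.finsetSum_apply, Measure.add_apply, smul_eq_mul,
    Measure.map_apply (D.Pm _) hA]

theorem pi0_apply {A : Set (E × E × E)} (hA : MeasurableSet A) : pi0 D m A =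
    6⁻¹ * ∑ i : Bool, (m ((fun b => (b, D.P (i, false) b, D.P (i, true) b)) ⁻¹' A) +
      m ((fun b => (D.P (i, false) b, D.P (i, true) b, b)) ⁻¹' A) +
      m ((fun b => (D.P (i, true) b, b, D.P (i, false) b)) ⁻¹' A)) := by
  simp only [pi0, Measure.smul_apply, Measure.finsetSum_apply, Measure.add_apply, smul_eq_mul,
    Measure.map_apply (meas1 D _) hA, Measure.map_apply (meas2 D _) hA, Measure.map_apply (meas3 D _) hA]

theorem lintegral_mu {F : E → ℝ≥0∞} (hF : Measurable F) : ∫⁻ x, F x ∂(mu D m) =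
    6⁻¹ * ∑ i : Bool, (∫⁻ b, F b ∂m + ∫⁻ b, F (D.P (i, false) b) ∂m + ∫⁻ b, F (D.P (i, true) b) ∂m) := by
  simp only [mu, lintegral_smul_measure, lintegral_finsetSum_measure, lintegral_add_measure, smul_eq_mul,
    lintegral_map hF (D.Pm _)]

theorem lintegral_pi0 {F : E × E × E → ℝ≥0∞} (hF : Measurable F) : ∫⁻ x, F x ∂(pi0 D m) =
    6⁻¹ * ∑ i : Bool, (∫⁻ b, F (b, D.P (i, false) b, D.P (i, true) b) ∂m +
      ∫⁻ b, F (D.P (i, false) b, D.P (i, true) b, b) ∂m + ∫⁻ b, F (D.P (i, true) b, b, D.P (i, false) b) ∂m) := by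
  simp only [pi0, lintegral_smul_measure, lintegral_finsetSum_measure, lintegral_add_measure, smul_eq_mul,
    lintegral_map hF (meas1 D _), lintegral_map hF (meas2 D _), lintegral_map hF (meas3 D _)]

theorem coupling_pi0 : IsCoupling₃ (mu D m) (pi0 D m) := by
  refine ⟨?_, ?_, ?_⟩
  · ext A hA
    rw [Measure.map_apply measurable_fst hA, pi0_apply D m (measurable_fst hA), mu_apply D m hA]
    rfl
  · ext A hA
    have hm : Measurable (fun p : E × E × E => p.2.1) := measurable_fst.comp measurable_snd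
    rw [Measure.map_apply hm hA, pi0_apply D m (hm hA), mu_apply D m hA]
    congr 1
    refine Finset.sum_congr rfl fun i _ => ?_
    change m (D.P (i, false) ⁻¹' A) + m (D.P (i, true) ⁻¹' A) + m A =
      m A + m (D.P (i, false) ⁻¹' A) + m (D.P (i, true) ⁻¹' A)
    abel
  · ext A hA
    have hm : Measurable (fun p : E × E × E => p.2.2) := measurable_snd.comp measurable_snd
    rw [Measure.map_apply hm hA, pi0_apply D m (hm hA), mu_apply D m hA]
    congr 1
    refine Finset.sum_congr rfl fun i _ => ?_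
    change m (D.P (i, true) ⁻¹' A) + m A + m (D.P (i, false) ⁻¹' A) =
      m A + m (D.P (i, false) ⁻¹' A) + m (D.P (i, true) ⁻¹' A)
    abel

theorem zero_of_mu {A : Set E} (hA : MeasurableSet A) (h : mu D m A = 0) :
    m A = 0 ∧ ∀ k, m (D.P k ⁻¹' A) = 0 := by
  rw [mu_apply D m hA] at h
  have h6 : (6:ℝ≥0∞)⁻¹ ≠ 0 := by simp
  have h1 := (mul_eq_zero.1 h).resolve_left h6
  rw [Finset.sum_eq_zero_iff] at h1
  have h2 : ∀ i : Bool, m A = 0 ∧ m (D.P (i, false) ⁻¹' A) = 0 ∧ m (D.P (i, true) ⁻¹' A) = 0 := by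
    intro i
    have := h1 i (Finset.mem_univ _)
    simp only [add_eq_zero] at this
    exact ⟨this.1.1, this.1.2, this.2⟩
  refine ⟨(h2 true).1, ?_⟩
  rintro ⟨i, j⟩
  cases j
  · exact (h2 i).2.1
  · exact (h2 i).2.2

theorem mu_zero_of {A : Set E} (hA : MeasurableSet A) (h0 : m A = 0) (h : ∀ k, m (D.P k ⁻¹' A) = 0) :
    mu D m A = 0 := by
  rw [mu_apply D m hA]
  simp [h0, h]

theorem m_ac_mu : m ≪ mu D m := by
  refine Measure.AbsolutelyContinuous.mk fun A hA h => (zero_of_mu D m hA h).1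

theorem map_ac_mu (k : Bool × Bool) : m.map (D.P k) ≪ mu D m := by
  refine Measure.AbsolutelyContinuous.mk fun A hA h => ?_
  rw [Measure.map_apply (D.Pm k) hA]
  exact (zero_of_mu D m hA h).2 k

theorem mu_univ (hm : m univ = 1) : mu D m univ = 1 := by
  rw [mu_apply D m MeasurableSet.univ]
  simp only [preimage_univ, hm]
  simp only [Fintype.sum_bool]
  rw [show (1:ℝ≥0∞) + 1 + 1 + (1 + 1 + 1) = 6 by norm_num]
  exact ENNReal.inv_mul_cancel (by norm_num) (by norm_num)

/-- the support -/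
def Sset : Set E := Metric.closedBall (0:E) D.ε ∪ ⋃ k, D.P k '' Metric.closedBall (0:E) D.ε

theorem isCompact_image (k : Bool × Bool) : IsCompact (D.P k '' Metric.closedBall (0:E) D.ε) :=
  (isCompact_closedBall _ _).image_of_continuousOn
    fun x hx => (D.chart k x hx).1.continuousAt.continuousWithinAt

theorem isCompact_S : IsCompact (Sset D) :=
  (isCompact_closedBall _ _).union (isCompact_iUnion fun k => isCompact_image D k)

theorem mem_S {x : E} (hx : x ∈ Sset D) :
    x ∈ Metric.closedBall (0:E) D.ε ∨ ∃ k, ∃ b ∈ Metric.closedBall (0:E) D.ε, x = D.P k b := by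
  rcases hx with hx | hx
  · exact Or.inl hx
  · simp only [mem_iUnion] at hx
    obtain ⟨k, b, hb, rfl⟩ := hx
    exact Or.inr ⟨k, b, hb, rfl⟩

theorem mu_S (hB : m (Metric.closedBall (0:E) D.ε)ᶜ = 0) : ∀ᵐ x ∂(mu D m), x ∈ Sset D := by
  have hSm : MeasurableSet (Sset D) := (isCompact_S D).isClosed.measurableSet
  rw [ae_iff]
  refine mu_zero_of D m hSm.compl ?_ ?_
  · exact measure_mono_null (fun x hx h => hx (Or.inl h)) hB
  · intro k
    refine measure_mono_null (t := (Metric.closedBall (0:E) D.ε)ᶜ) (fun x hx h => hx (Or.inr ?_)) hB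
    exact mem_iUnion.2 ⟨k, x, h, rfl⟩

/-- shifted potential -/
noncomputable def w (x : E) : ℝ≥0∞ := ENNReal.ofReal (D.u x + D.C)

theorem w_meas : Measurable (w D) := ENNReal.measurable_ofReal.comp (D.um.add_const _)

theorem C_nonneg : 0 ≤ D.C := (abs_nonneg _).trans (D.uC 0)

theorem w_sum (x y z : E) : w D x + w D y + w D z = ENNReal.ofReal (D.u x + D.u y + D.u z + 3 * D.C) := by
  have h : ∀ x, 0 ≤ D.u x + D.C := fun x => by linarith [(abs_le.1 (D.uC x)).1]
  simp only [w]
  rw [← ENNReal.ofReal_add (h x) (h y), ← ENNReal.ofReal_add (add_nonneg (h x) (h y)) (h z)]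
  congr 1; ring

theorem w_le {x y z : E} (hx : x ∈ Sset D) (hy : y ∈ Sset D) (hz : z ∈ Sset D) :
    w D x + w D y + w D z ≤ tripleCost s (x, y, z) + ENNReal.ofReal (3 * D.C) := by
  rcases D.ineq x y z (mem_S D hx) (mem_S D hy) (mem_S D hz) with h | ⟨h1, h2⟩
  · rw [h]; simp
  · rw [w_sum, h1, ← ENNReal.ofReal_add (cR_nonneg _ _ _ _) (by linarith [C_nonneg D])]
    apply ENNReal.ofReal_le_ofReal
    rcases h2 with h2 | ⟨h2, _⟩ <;> linarith

theorem contact_of_eq {x y z : E} (hx : x ∈ Sset D) (hy : y ∈ Sset D) (hz : z ∈ Sset D)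
    (h : w D x + w D y + w D z = tripleCost s (x, y, z) + ENNReal.ofReal (3 * D.C)) :
    Contact D.P D.ε x y z := by
  rcases D.ineq x y z (mem_S D hx) (mem_S D hy) (mem_S D hz) with h' | ⟨h1, h2⟩
  · rw [h', w_sum] at h; simp at h
  · rcases h2 with h2 | ⟨_, h3⟩
    · exfalso
      rw [w_sum, h1, ← ENNReal.ofReal_add (cR_nonneg _ _ _ _) (by linarith [C_nonneg D])] at h
      have := (ENNReal.ofReal_lt_ofReal_iff_of_nonneg (p := D.u x + D.u y + D.u z + 3 * D.C)
        (q := cR s x y z + 3 * D.C) (by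
          linarith [(abs_le.1 (D.uC x)).1, (abs_le.1 (D.uC y)).1, (abs_le.1 (D.uC z)).1])).2 (by linarith)
      exact this.ne h
    · exact h3

theorem w_eq (i : Bool) {b : E} (hb : b ∈ Metric.closedBall (0:E) D.ε) :
    w D b + w D (D.P (i, false) b) + w D (D.P (i, true) b) =
      tripleCost s (b, D.P (i, false) b, D.P (i, true) b) + ENNReal.ofReal (3 * D.C) := by
  have n1 : b ≠ D.P (i, false) b := fun h => D.disj0 (i, false) b hb b hb h.symm
  have n2 : b ≠ D.P (i, true) b := fun h => D.disj0 (i, true) b hb b hb h.symm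
  have n3 : D.P (i, false) b ≠ D.P (i, true) b := D.disj _ _ (by simp) b hb b hb
  rw [w_sum, tripleCost_of_ne s n1 n2 n3, ← ENNReal.ofReal_add (cR_nonneg _ _ _ _) (by linarith [C_nonneg D]),
    D.eqc i b hb]

end Crest.Agent.H3.MM
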