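import Crest.Agent.H3.MM.NonMonge

open Set Filter Topology MeasureTheory
open scoped ContDiff RealInnerProductSpace ENNReal
open Crest.AnalysisR.OT

namespace Crest.Agent.H3.MM

/-- inverse powers are uniformly continuous away from zero -/
theorem rpow_lip {s r : ℝ} (hs : 0 < s) (hr : 0 < r) : ∃ L : ℝ, 0 < L ∧ ∀ t t' : ℝ, r ≤ t → r ≤ t' →
    |t ^ (-s) - t' ^ (-s)| ≤ L * |t - t'| := by
  refine ⟨s * r ^ (-s - 1), mul_pos hs (Real.rpow_pos_of_pos hr _), fun t t' ht ht' => ?_⟩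
  have := (convex_Ici r).norm_image_sub_le_of_norm_hasDerivWithin_le (f := fun t : ℝ => t ^ (-s))
    (f' := fun t => -s * t ^ (-s - 1)) (C := s * r ^ (-s - 1)) (x := t') (y := t)
    (fun x hx => (Real.hasDerivAt_rpow_const (Or.inl (by
      have : r ≤ x := hx
      linarith))).hasDerivWithinAt)
    (fun x hx => by
      have hx' : r ≤ x := hx
      have hx0 : 0 < x := by linarith
      rw [Real.norm_eq_abs, abs_mul, abs_neg, abs_of_pos hs, abs_of_pos (Real.rpow_pos_of_pos hx0 _)]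
      exact mul_le_mul_of_nonneg_left (Real.rpow_le_rpow_of_nonpos hr hx' (by linarith)) hs.le)
    ht' ht
  exact this

variable {E : Type*} [NormedAddCommGroup E] [InnerProductSpace ℝ E]

theorem pairCost_close {s r : ℝ} (hs : 0 < s) (hr : 0 < r) {ε : ℝ≥0∞} (hε : 0 < ε) :
    ∃ δ > 0, ∀ x x' y : E, dist x x' < δ → r ≤ ‖x - y‖ → r / 2 ≤ ‖x' - y‖ ∧
      pairCost s x' y ≤ pairCost s x y + ε := by
  obtain ⟨L, hL, hLip⟩ := rpow_lip hs (half_pos hr)
  obtain ⟨e, he, heε⟩ : ∃ e : ℝ, 0 < e ∧ ENNReal.ofReal e ≤ ε := by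
    rcases eq_or_ne ε ⊤ with h | h
    · exact ⟨1, one_pos, by rw [h]; exact le_top⟩
    · exact ⟨ε.toReal, ENNReal.toReal_pos hε.ne' h, by rw [ENNReal.ofReal_toReal h]⟩
  refine ⟨min (r / 2) (e / L), lt_min (half_pos hr) (div_pos he hL), fun x x' y hd hxy => ?_⟩
  have hd1 : dist x x' < r / 2 := lt_of_lt_of_le hd (min_le_left _ _)
  have hd2 : dist x x' < e / L := lt_of_lt_of_le hd (min_le_right _ _)
  rw [dist_eq_norm] at hd1 hd2
  have h1 : |‖x' - y‖ - ‖x - y‖| ≤ ‖x - x'‖ := by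
    have := abs_norm_sub_norm_le (x' - y) (x - y)
    rwa [sub_sub_sub_cancel_right, norm_sub_rev x' x] at this
  have h2 : r / 2 ≤ ‖x' - y‖ := by
    have := (abs_le.1 h1).1
    linarith
  refine ⟨h2, ?_⟩
  have n1 : x ≠ y := by
    intro h; rw [h, sub_self, norm_zero] at hxy; linarith
  have n2 : x' ≠ y := by
    intro h; rw [h, sub_self, norm_zero] at h2; linarith
  rw [pairCost_of_ne s n1, pairCost_of_ne s n2]
  have h3 := hLip ‖x' - y‖ ‖x - y‖ h2 (by linarith)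
  have h4 : phi s (x' - y) ≤ phi s (x - y) + e := by
    unfold phi
    have h5 := (abs_le.1 h3).2
    have h6 : L * |‖x' - y‖ - ‖x - y‖| ≤ L * (e / L) := by
      gcongr; exact h1.trans hd2.le
    have h7 : L * (e / L) = e := by field_simp
    linarith
  calc ENNReal.ofReal (phi s (x' - y)) ≤ ENNReal.ofReal (phi s (x - y) + e) := ENNReal.ofReal_le_ofReal h4
    _ = ENNReal.ofReal (phi s (x - y)) + ENNReal.ofReal e := ENNReal.ofReal_add (phi_nonneg _ _) he.le
    _ ≤ _ := by gcongr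

/-- triples with separated coordinates -/
def Sep (r : ℝ) : Set (E × E × E) := {p | r ≤ ‖p.1 - p.2.1‖ ∧ r ≤ ‖p.1 - p.2.2‖}

theorem tripleCost_close {s r : ℝ} (hs : 0 < s) (hr : 0 < r) {ε : ℝ≥0∞} (hε : 0 < ε) :
    ∃ δ > 0, ∀ x x' : E, ∀ y : E × E, dist x x' < δ → (x, y) ∈ (Sep r : Set (E × E × E)) →
      (x', y) ∈ (Sep (r / 2) : Set (E × E × E)) ∧ tripleCost s (x', y) ≤ tripleCost s (x, y) + ε := by
  obtain ⟨δ, hδ, h⟩ := pairCost_close (E := E) hs hr (ENNReal.half_pos hε.ne')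
  refine ⟨δ, hδ, fun x x' y hd hxy => ?_⟩
  obtain ⟨a1, a2⟩ := h x x' y.1 hd hxy.1
  obtain ⟨b1, b2⟩ := h x x' y.2 hd hxy.2
  refine ⟨⟨a1, b1⟩, ?_⟩
  simp only [tripleCost]
  calc pairCost s x' y.1 + pairCost s x' y.2 + pairCost s y.1 y.2
      ≤ (pairCost s x y.1 + ε / 2) + (pairCost s x y.2 + ε / 2) + pairCost s y.1 y.2 := by gcongr
    _ = pairCost s x y.1 + pairCost s x y.2 + pairCost s y.1 y.2 + (ε / 2 + ε / 2) := by ring
    _ = _ := by rw [ENNReal.add_halves]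

variable [FiniteDimensional ℝ E] [MeasurableSpace E] [BorelSpace E]

theorem measurableSet_Sep (r : ℝ) : MeasurableSet (Sep r : Set (E × E × E)) := by
  have h1 : Measurable (fun p : E × E × E => ‖p.1 - p.2.1‖) :=
    (measurable_fst.sub (measurable_fst.comp measurable_snd)).norm
  have h2 : Measurable (fun p : E × E × E => ‖p.1 - p.2.2‖) :=
    (measurable_fst.sub (measurable_snd.comp measurable_snd)).norm
  exact (measurableSet_le measurable_const h1).inter (measurableSet_le measurable_const h2)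

variable {s : ℝ} (D : Data s E) (m : Measure E)
variable (hm : m univ = 1) (hB : m (Metric.closedBall (0:E) D.ε)ᶜ = 0)

include hB in
theorem pi0_Sep : pi0 D m (Sep (1 / 2))ᶜ = 0 := by
  rw [pi0_apply D m (measurableSet_Sep _).compl]
  have h : ∀ (φ : E → E × E × E), (∀ b ∈ Metric.closedBall (0:E) D.ε, φ b ∈ Sep (1 / 2)) →
      m (φ ⁻¹' (Sep (1 / 2))ᶜ) = 0 := by
    intro φ hφ
    exact measure_mono_null (t := (Metric.closedBall (0:E) D.ε)ᶜ) (fun b hb hbB => hb (hφ b hbB)) hB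
  rw [mul_eq_zero]
  right
  refine Finset.sum_eq_zero fun i _ => ?_
  rw [h, h, h]
  · simp
  · intro b hb
    refine ⟨?_, ?_⟩
    · show 1 / 2 ≤ ‖D.P (i, true) b - b‖
      rw [norm_sub_rev]; exact D.sep0 _ b hb
    · show 1 / 2 ≤ ‖D.P (i, true) b - D.P (i, false) b‖
      rw [norm_sub_rev]; exact D.sep _ b hb
  · intro b hb
    refine ⟨?_, ?_⟩
    · show 1 / 2 ≤ ‖D.P (i, false) b - D.P (i, true) b‖
      exact D.sep _ b hb
    · show 1 / 2 ≤ ‖D.P (i, false) b - b‖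
      rw [norm_sub_rev]; exact D.sep0 _ b hb
  · intro b hb
    exact ⟨D.sep0 _ b hb, D.sep0 _ b hb⟩

include hm hB in
theorem exists_monge [Nontrivial E] [NullSingletonClass (mu D m)] (hs : 0 < s) {ε : ℝ≥0∞} (hε : 0 < ε) :
    ∃ T₂ T₃ : E → E, Measurable T₂ ∧ Measurable T₃ ∧ (mu D m).map T₂ = mu D m ∧ (mu D m).map T₃ = mu D m ∧
      ∫⁻ x, tripleCost s (x, T₂ x, T₃ x) ∂(mu D m) < ∫⁻ p, tripleCost s p ∂(pi0 D m) + ε := by
  haveI : IsFiniteMeasure (mu D m) := ⟨by rw [mu_univ D m hm]; exact ENNReal.one_lt_top⟩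
  have hc := coupling_pi0 D m
  obtain ⟨ε', hε', hε'2⟩ : ∃ ε' : ℝ≥0∞, 0 < ε' ∧ 2 * ε' < ε := by
    obtain ⟨e, he, hee⟩ := exists_between hε
    refine ⟨e / 2, ENNReal.half_pos he.ne', ?_⟩
    rw [ENNReal.mul_div_cancel (by norm_num) (by norm_num)]
    exact hee
  obtain ⟨T, hT, hT1, hT2⟩ := exists_map_approx (X := E) (Y := E × E) (mu D m) (pi0 D m) hc.1
    (fun x y => tripleCost s (x, y)) measurable_tripleCost (Sep (1 / 2)) (Sep (1 / 2 / 2))
    (pi0_Sep D m hB) (measurableSet_Sep _)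
    (fun e he => tripleCost_close hs (by norm_num) he)
    (fun e he => by
      obtain ⟨δ, hδ, h⟩ := tripleCost_close (E := E) hs (r := 1 / 2 / 2) (by norm_num) he
      exact ⟨δ, hδ, fun x x' y hd hxy => (h x x' y hd hxy).2⟩) hε'
  refine ⟨fun x => (T x).1, fun x => (T x).2, measurable_fst.comp hT, measurable_snd.comp hT, ?_, ?_, ?_⟩
  · have : (mu D m).map (fun x => (T x).1) = ((mu D m).map T).map Prod.fst :=
      (Measure.map_map measurable_fst hT).symm
    rw [this, hT1, Measure.map_map measurable_fst measurable_snd]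
    exact hc.2.1
  · have : (mu D m).map (fun x => (T x).2) = ((mu D m).map T).map Prod.snd :=
      (Measure.map_map measurable_snd hT).symm
    rw [this, hT1, Measure.map_map measurable_snd measurable_snd]
    exact hc.2.2
  · rw [mu_univ D m hm, mul_one] at hT2
    refine lt_of_le_of_lt hT2 ?_
    exact ENNReal.add_lt_add_left (pi0_lt_top D m hm hB).ne hε'2

end Crest.Agent.H3.MM
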