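import Crest.Agent.H3.MM.Opt

open Set Filter Topology MeasureTheory
open scoped ContDiff RealInnerProductSpace ENNReal
open Crest.AnalysisR.OT

namespace Crest.Agent.H3.MM

variable {E : Type*} [NormedAddCommGroup E] [InnerProductSpace ℝ E]
variable [FiniteDimensional ℝ E] [MeasurableSpace E] [BorelSpace E]
variable {s : ℝ} (D : Data s E) (m : Measure E)

theorem P_injOn (k : Bool × Bool) : InjOn (D.P k) (Metric.closedBall (0:E) D.ε) := by
  intro x hx y hy h
  rw [← (D.chart k x hx).2.1, ← (D.chart k y hy).2.1, h]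

theorem image_meas (k : Bool × Bool) {A : Set E} (hA : MeasurableSet A)
    (hAB : A ⊆ Metric.closedBall (0:E) D.ε) : MeasurableSet (D.P k '' A) :=
  hA.image_of_measurable_injOn (D.Pm k) ((P_injOn D k).mono hAB)

variable (hm : m univ = 1) (hB : m (Metric.closedBall (0:E) D.ε)ᶜ = 0)

include hB in
theorem mu_image (k : Bool × Bool) {A : Set E} (hA : MeasurableSet A)
    (hAB : A ⊆ Metric.closedBall (0:E) D.ε) : mu D m (D.P k '' A) = 6⁻¹ * m A := by
  have hBae : ∀ᵐ b ∂m, b ∈ Metric.closedBall (0:E) D.ε := by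
    rw [ae_iff]; exact hB
  have h0 : m (D.P k '' A) = 0 := by
    refine measure_mono_null (t := (Metric.closedBall (0:E) D.ε)ᶜ) ?_ hB
    rintro _ ⟨b, hb, rfl⟩ h
    exact D.disj0 k b (hAB hb) _ h rfl
  have h1 : ∀ l, l ≠ k → m (D.P l ⁻¹' (D.P k '' A)) = 0 := by
    intro l hl
    refine measure_mono_null (t := (Metric.closedBall (0:E) D.ε)ᶜ) ?_ hB
    rintro x ⟨b, hb, hbx⟩ h
    exact D.disj k l hl.symm b (hAB hb) x h hbx
  have h2 : m (D.P k ⁻¹' (D.P k '' A)) = m A := by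
    refine measure_congr ?_
    filter_upwards [hBae] with b hb
    apply propext
    constructor
    · rintro ⟨c, hc, hcb⟩
      have := P_injOn D k (hAB hc) hb hcb
      rw [← this]; exact hc
    · intro h; exact ⟨b, h, rfl⟩
  rw [mu_apply D m (image_meas D k hA hAB), h0]
  congr 1
  simp only [Fintype.sum_bool, zero_add]
  obtain ⟨i, j⟩ := k
  cases i <;> cases j <;> simp [h1, h2]

include hB in
/-- For each type, the set of central points of that type is null. -/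
theorem type_null {T₂ T₃ : E → E} (h2 : Measurable T₂) (h3 : Measurable T₃)
    (e2 : (mu D m).map T₂ = mu D m) (e3 : (mu D m).map T₃ = mu D m)
    (hc : ∀ᵐ x ∂(mu D m), Contact D.P D.ε x (T₂ x) (T₃ x)) (i : Bool) (hm : m univ = 1) :
    m {x | x ∈ Metric.closedBall (0:E) D.ε ∧ T₂ x ∈ D.P (i, false) '' Metric.closedBall (0:E) D.ε ∪
      D.P (i, true) '' Metric.closedBall (0:E) D.ε} = 0 := by
  set B := Metric.closedBall (0:E) D.ε with hBdef
  set F := {x | x ∈ B ∧ T₂ x ∈ D.P (i, false) '' B ∪ D.P (i, true) '' B} with hF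
  have hBm : MeasurableSet B := Metric.isClosed_closedBall.measurableSet
  have hFm : MeasurableSet F :=
    hBm.inter (h2 (((isCompact_image D _).isClosed.measurableSet).union
      ((isCompact_image D _).isClosed.measurableSet)))
  have hFB : F ⊆ B := fun x hx => hx.1
  set A := D.P (!i, false) '' F with hA
  set Z := D.P (!i, true) '' F with hZ
  have hAm : MeasurableSet A := image_meas D _ hFm hFB
  have hZm : MeasurableSet Z := image_meas D _ hFm hFB
  have hmuA : mu D m A = 6⁻¹ * m F := mu_image D m hB _ hFm hFB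
  have hmuZ : mu D m Z = 6⁻¹ * m F := mu_image D m hB _ hFm hFB
  have hni : i ≠ !i := by cases i <;> simp
  -- analysis of contact triples
  have key : ∀ x y z, Contact D.P D.ε x y z → (x ∈ B → x ∈ F → y ∈ D.P (i, false) '' B ∪ D.P (i, true) '' B) →
      (y ∈ A → x ∈ Z) ∧ (z ∈ A → x ∈ Z) ∧ ¬ (x ∈ Z ∧ y ∈ A ∧ z ∈ A) := by
    rintro x y z ⟨j, b, hb, h⟩ hF'
    -- locate points
    have hcA : ∀ c ∈ B, c ∉ A := by
      rintro c hc ⟨e, he, hec⟩
      exact D.disj0 _ e (hFB he) c hc hec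
    have hk : ∀ k c, c ∈ B → D.P k c ∈ A → k = (!i, false) ∧ c ∈ F := by
      rintro k c hc ⟨e, he, hec⟩
      by_cases hke : (!i, false) = k
      · refine ⟨hke.symm, ?_⟩
        rw [← hke] at hec
        have := P_injOn D _ (hFB he) hc hec
        rw [← this]; exact he
      · exact absurd hec (D.disj _ _ hke e (hFB he) c hc)
    have hno : ∀ k c, c ∈ B → k.1 = !i → D.P k c ∉ D.P (i, false) '' B ∪ D.P (i, true) '' B := by
      rintro k c hc hk1 (⟨e, he, hec⟩ | ⟨e, he, hec⟩)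
      · refine D.disj (i, false) k ?_ e he c hc hec
        intro h; rw [← h] at hk1; exact hni hk1
      · refine D.disj (i, true) k ?_ e he c hc hec
        intro h; rw [← h] at hk1; exact hni hk1
    refine ⟨?_, ?_, ?_⟩
    · intro hyA
      rcases h with ⟨rfl, rfl, rfl⟩ | ⟨rfl, rfl, rfl⟩ | ⟨rfl, rfl, rfl⟩ | ⟨rfl, rfl, rfl⟩ | ⟨rfl, rfl, rfl⟩ |
        ⟨rfl, rfl, rfl⟩
      · obtain ⟨h4, h5⟩ := hk _ _ hb hyA
        exact absurd (hF' hb h5) (hno _ _ hb (by simpa using congrArg Prod.fst h4))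
      · obtain ⟨h4, h5⟩ := hk _ _ hb hyA
        simp at h4
      · exact absurd hyA (hcA _ hb)
      · obtain ⟨h4, h5⟩ := hk _ _ hb hyA
        simp at h4
      · exact absurd hyA (hcA _ hb)
      · obtain ⟨h4, h5⟩ := hk _ _ hb hyA
        simp only [Prod.mk.injEq, and_true] at h4
        rw [h4]
        exact ⟨z, h5, rfl⟩
    · intro hzA
      rcases h with ⟨rfl, rfl, rfl⟩ | ⟨rfl, rfl, rfl⟩ | ⟨rfl, rfl, rfl⟩ | ⟨rfl, rfl, rfl⟩ | ⟨rfl, rfl, rfl⟩ |
        ⟨rfl, rfl, rfl⟩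
      · obtain ⟨h4, h5⟩ := hk _ _ hb hzA
        simp at h4
      · obtain ⟨h4, h5⟩ := hk _ _ hb hzA
        exact absurd (hF' hb h5) (hno _ _ hb (by simpa using congrArg Prod.fst h4))
      · obtain ⟨h4, h5⟩ := hk _ _ hb hzA
        simp at h4
      · exact absurd hzA (hcA _ hb)
      · obtain ⟨h4, h5⟩ := hk _ _ hb hzA
        simp only [Prod.mk.injEq, and_true] at h4
        rw [h4]
        exact ⟨y, h5, rfl⟩
      · exact absurd hzA (hcA _ hb)
    · rintro ⟨hxZ, hyA, hzA⟩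
      rcases h with ⟨rfl, rfl, rfl⟩ | ⟨rfl, rfl, rfl⟩ | ⟨rfl, rfl, rfl⟩ | ⟨rfl, rfl, rfl⟩ | ⟨rfl, rfl, rfl⟩ |
        ⟨rfl, rfl, rfl⟩
      · obtain ⟨h4, h5⟩ := hk _ _ hb hzA
        simp at h4
      · obtain ⟨h4, h5⟩ := hk _ _ hb hyA
        simp at h4
      · exact absurd hyA (hcA _ hb)
      · exact absurd hzA (hcA _ hb)
      · exact absurd hyA (hcA _ hb)
      · exact absurd hzA (hcA _ hb)
  have hall : ∀ᵐ x ∂(mu D m), (T₂ x ∈ A → x ∈ Z) ∧ (T₃ x ∈ A → x ∈ Z) ∧ ¬ (x ∈ Z ∧ T₂ x ∈ A ∧ T₃ x ∈ A) := by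
    filter_upwards [hc] with x hx
    exact key _ _ _ hx fun _ hxF => hxF.2
  have hfin : mu D m Z ≠ ⊤ := by
    have : mu D m Z ≤ 1 := by rw [← mu_univ D m hm]; exact measure_mono (subset_univ _)
    exact (this.trans_lt ENNReal.one_lt_top).ne
  have hTA : ∀ T : E → E, Measurable T → (mu D m).map T = mu D m → (∀ᵐ x ∂(mu D m), T x ∈ A → x ∈ Z) →
      mu D m (Z \ T ⁻¹' A) = 0 := by
    intro T hT hTe hTae
    have h4 : mu D m (T ⁻¹' A) = mu D m Z := by
      rw [← Measure.map_apply hT hAm, hTe, hmuA, hmuZ]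
    have h5 : (T ⁻¹' A : Set E) ≤ᵐ[mu D m] Z := hTae
    have h6 := ae_eq_of_ae_subset_of_measure_ge h5 h4.ge (hT hAm).nullMeasurableSet hfin
    exact (ae_le_set.1 h6.symm.le)
  have hz2 := hTA T₂ h2 e2 (hall.mono fun x hx => hx.1)
  have hz3 := hTA T₃ h3 e3 (hall.mono fun x hx => hx.2.1)
  have hZ0 : mu D m Z = 0 := by
    have h7 : Z ⊆ (Z \ T₂ ⁻¹' A) ∪ (Z \ T₃ ⁻¹' A) ∪ {x | ¬ ((T₂ x ∈ A → x ∈ Z) ∧ (T₃ x ∈ A → x ∈ Z) ∧
        ¬ (x ∈ Z ∧ T₂ x ∈ A ∧ T₃ x ∈ A))} := by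
      intro x hx
      by_cases hx2 : T₂ x ∈ A
      · by_cases hx3 : T₃ x ∈ A
        · right
          intro h
          exact h.2.2 ⟨hx, hx2, hx3⟩
        · exact Or.inl (Or.inr ⟨hx, hx3⟩)
      · exact Or.inl (Or.inl ⟨hx, hx2⟩)
    exact measure_mono_null h7 (measure_union_null (measure_union_null hz2 hz3) (ae_iff.1 hall))
  rw [hmuZ, mul_eq_zero] at hZ0
  exact hZ0.resolve_left (by simp)

include hm hB in
theorem no_contact {T₂ T₃ : E → E} (h2 : Measurable T₂) (h3 : Measurable T₃)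
    (e2 : (mu D m).map T₂ = mu D m) (e3 : (mu D m).map T₃ = mu D m)
    (hc : ∀ᵐ x ∂(mu D m), Contact D.P D.ε x (T₂ x) (T₃ x)) : False := by
  have hF := type_null D m hB h2 h3 e2 e3 hc false hm
  have hT := type_null D m hB h2 h3 e2 e3 hc true hm
  have hcm : ∀ᵐ x ∂m, Contact D.P D.ε x (T₂ x) (T₃ x) := (m_ac_mu D m).ae_le hc
  have hsub : (univ : Set E) ⊆ (Metric.closedBall (0:E) D.ε)ᶜ ∪ {x | ¬ Contact D.P D.ε x (T₂ x) (T₃ x)} ∪
      ({x | x ∈ Metric.closedBall (0:E) D.ε ∧ T₂ x ∈ D.P (false, false) '' Metric.closedBall (0:E) D.ε ∪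
        D.P (false, true) '' Metric.closedBall (0:E) D.ε} ∪
      {x | x ∈ Metric.closedBall (0:E) D.ε ∧ T₂ x ∈ D.P (true, false) '' Metric.closedBall (0:E) D.ε ∪
        D.P (true, true) '' Metric.closedBall (0:E) D.ε}) := by
    intro x _
    by_cases hx : x ∈ Metric.closedBall (0:E) D.ε
    · by_cases hcx : Contact D.P D.ε x (T₂ x) (T₃ x)
      · right
        obtain ⟨i, b, hb, h⟩ := hcx
        have hT2 : T₂ x ∈ D.P (i, false) '' Metric.closedBall (0:E) D.ε ∪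
            D.P (i, true) '' Metric.closedBall (0:E) D.ε := by
          rcases h with ⟨-, h, -⟩ | ⟨-, h, -⟩ | ⟨h, -, -⟩ | ⟨h, -, -⟩ | ⟨h, -, -⟩ | ⟨h, -, -⟩
          · left; rw [h]; exact ⟨b, hb, rfl⟩
          · right; rw [h]; exact ⟨b, hb, rfl⟩
          · exact absurd h.symm (D.disj0 _ b hb x hx)
          · exact absurd h.symm (D.disj0 _ b hb x hx)
          · exact absurd h.symm (D.disj0 _ b hb x hx)
          · exact absurd h.symm (D.disj0 _ b hb x hx)
        cases i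
        · exact Or.inl ⟨hx, hT2⟩
        · exact Or.inr ⟨hx, hT2⟩
      · exact Or.inl (Or.inr hcx)
    · exact Or.inl (Or.inl hx)
  have h0 : m univ = 0 := measure_mono_null hsub
    (measure_union_null (measure_union_null hB (ae_iff.1 hcm)) (measure_union_null hF hT))
  rw [hm] at h0
  exact one_ne_zero h0

include hm hB in
theorem strict_monge {T₂ T₃ : E → E} (h2 : Measurable T₂) (h3 : Measurable T₃)
    (e2 : (mu D m).map T₂ = mu D m) (e3 : (mu D m).map T₃ = mu D m) :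
    ∫⁻ p, tripleCost s p ∂(pi0 D m) < ∫⁻ x, tripleCost s (x, T₂ x, T₃ x) ∂(mu D m) := by
  by_contra h
  push Not at h
  exact no_contact D m hm hB h2 h3 e2 e3 (contact_ae D m hm hB h2 h3 e2 e3 h)

end Crest.Agent.H3.MM
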