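import Crest.Agent.H3.MM.Meas

open Set Filter Topology MeasureTheory
open scoped ContDiff RealInnerProductSpace ENNReal
open Crest.AnalysisR.OT

namespace Crest.Agent.H3.MM

variable {E : Type*} [NormedAddCommGroup E] [InnerProductSpace ℝ E]
variable [FiniteDimensional ℝ E] [MeasurableSpace E] [BorelSpace E]
variable {s : ℝ} (D : Data s E) (m : Measure E)

theorem measurable_pairCost : Measurable (fun p : E × E => pairCost s p.1 p.2) := by
  unfold pairCost
  exact (ENNReal.measurable_ofReal.comp (measurable_fst.sub measurable_snd).norm).pow_const _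

theorem measurable_tripleCost : Measurable (tripleCost s : E × E × E → ℝ≥0∞) := by
  unfold tripleCost
  have h1 : Measurable (fun p : E × E × E => pairCost s p.1 p.2.1) :=
    measurable_pairCost.comp (measurable_fst.prodMk (measurable_fst.comp measurable_snd))
  have h2 : Measurable (fun p : E × E × E => pairCost s p.1 p.2.2) :=
    measurable_pairCost.comp (measurable_fst.prodMk (measurable_snd.comp measurable_snd))
  have h3 : Measurable (fun p : E × E × E => pairCost s p.2.1 p.2.2) :=
    measurable_pairCost.comp ((measurable_fst.comp measurable_snd).prodMk (measurable_snd.comp measurable_snd))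
  exact (h1.add h2).add h3

theorem lintegral_w_coupling {π : Measure (E × E × E)} (hπ : IsCoupling₃ (mu D m) π) :
    ∫⁻ p, (w D p.1 + w D p.2.1 + w D p.2.2) ∂π = 3 * ∫⁻ x, w D x ∂(mu D m) := by
  have hw := w_meas D
  have m1 : Measurable (fun p : E × E × E => p.1) := measurable_fst
  have m2 : Measurable (fun p : E × E × E => p.2.1) := measurable_fst.comp measurable_snd
  have m3 : Measurable (fun p : E × E × E => p.2.2) := measurable_snd.comp measurable_snd
  have a1 : Measurable (fun p : E × E × E => w D p.1) := hw.comp m1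
  have a2 : Measurable (fun p : E × E × E => w D p.2.1) := hw.comp m2
  rw [lintegral_add_left (f := fun p : E × E × E => w D p.1 + w D p.2.1) (a1.add a2),
    lintegral_add_left (f := fun p : E × E × E => w D p.1) a1]
  have e1 : ∫⁻ p, w D p.1 ∂π = ∫⁻ x, w D x ∂(mu D m) := by
    conv_rhs => rw [← hπ.1]
    rw [lintegral_map hw m1]
  have e2 : ∫⁻ p, w D p.2.1 ∂π = ∫⁻ x, w D x ∂(mu D m) := by
    conv_rhs => rw [← hπ.2.1]
    rw [lintegral_map hw m2]
  have e3 : ∫⁻ p, w D p.2.2 ∂π = ∫⁻ x, w D x ∂(mu D m) := by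
    conv_rhs => rw [← hπ.2.2]
    rw [lintegral_map hw m3]
  rw [e1, e2, e3]
  ring

variable (hm : m univ = 1) (hB : m (Metric.closedBall (0:E) D.ε)ᶜ = 0)

include hm hB in
theorem coupling_mass {π : Measure (E × E × E)} (hπ : IsCoupling₃ (mu D m) π) : π univ = 1 := by
  have := congrArg (fun ν : Measure E => ν univ) hπ.1
  rw [Measure.map_apply measurable_fst MeasurableSet.univ, preimage_univ, mu_univ D m hm] at this
  exact this

include hB in
theorem coupling_S {π : Measure (E × E × E)} (hπ : IsCoupling₃ (mu D m) π) :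
    ∀ᵐ p ∂π, p.1 ∈ Sset D ∧ p.2.1 ∈ Sset D ∧ p.2.2 ∈ Sset D := by
  have m1 : Measurable (fun p : E × E × E => p.1) := measurable_fst
  have m2 : Measurable (fun p : E × E × E => p.2.1) := measurable_fst.comp measurable_snd
  have m3 : Measurable (fun p : E × E × E => p.2.2) := measurable_snd.comp measurable_snd
  have h := mu_S D m hB
  have h1 : ∀ᵐ p ∂π, p.1 ∈ Sset D := by
    rw [← hπ.1] at h
    exact ae_of_ae_map m1.aemeasurable h
  have h2 : ∀ᵐ p ∂π, p.2.1 ∈ Sset D := by
    rw [← hπ.2.1] at h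
    exact ae_of_ae_map m2.aemeasurable h
  have h3 : ∀ᵐ p ∂π, p.2.2 ∈ Sset D := by
    rw [← hπ.2.2] at h
    exact ae_of_ae_map m3.aemeasurable h
  filter_upwards [h1, h2, h3] with p a b c
  exact ⟨a, b, c⟩

include hm hB in
theorem lower_bound {π : Measure (E × E × E)} (hπ : IsCoupling₃ (mu D m) π) :
    3 * ∫⁻ x, w D x ∂(mu D m) ≤ ∫⁻ p, tripleCost s p ∂π + ENNReal.ofReal (3 * D.C) := by
  rw [← lintegral_w_coupling D m hπ]
  calc ∫⁻ p, (w D p.1 + w D p.2.1 + w D p.2.2) ∂π
      ≤ ∫⁻ p, (tripleCost s p + ENNReal.ofReal (3 * D.C)) ∂π := by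
        refine lintegral_mono_ae ?_
        filter_upwards [coupling_S D m hB hπ] with p hp
        exact w_le D hp.1 hp.2.1 hp.2.2
    _ = _ := by
        rw [lintegral_add_right _ measurable_const, lintegral_const, coupling_mass D m hm hB hπ, mul_one]

include hm hB in
theorem pi0_cost : ∫⁻ p, tripleCost s p ∂(pi0 D m) + ENNReal.ofReal (3 * D.C) =
    3 * ∫⁻ x, w D x ∂(mu D m) := by
  have hc := coupling_pi0 D m
  rw [← lintegral_w_coupling D m hc]
  have h1 : ∫⁻ p, (tripleCost s p + ENNReal.ofReal (3 * D.C)) ∂(pi0 D m) =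
      ∫⁻ p, tripleCost s p ∂(pi0 D m) + ENNReal.ofReal (3 * D.C) := by
    rw [lintegral_add_right _ measurable_const, lintegral_const, coupling_mass D m hm hB hc, mul_one]
  rw [← h1]
  have m1 : Measurable (fun p : E × E × E => p.1) := measurable_fst
  have m2 : Measurable (fun p : E × E × E => p.2.1) := measurable_fst.comp measurable_snd
  have m3 : Measurable (fun p : E × E × E => p.2.2) := measurable_snd.comp measurable_snd
  have hw := w_meas D
  have a1 : Measurable (fun p : E × E × E => w D p.1) := hw.comp m1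
  have a2 : Measurable (fun p : E × E × E => w D p.2.1) := hw.comp m2
  have a3 : Measurable (fun p : E × E × E => w D p.2.2) := hw.comp m3
  rw [lintegral_pi0 D m (measurable_tripleCost.add_const _),
    lintegral_pi0 D m (F := fun p : E × E × E => w D p.1 + w D p.2.1 + w D p.2.2) ((a1.add a2).add a3)]
  congr 1
  refine Finset.sum_congr rfl fun i _ => ?_
  have hBae : ∀ᵐ b ∂m, b ∈ Metric.closedBall (0:E) D.ε := by
    rw [ae_iff]; exact hB
  congr 1
  · congr 1
    · refine lintegral_congr_ae ?_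
      filter_upwards [hBae] with b hb
      exact (w_eq D i hb).symm
    · refine lintegral_congr_ae ?_
      filter_upwards [hBae] with b hb
      have := w_eq D i hb
      rw [← tripleCost_swap23, ← tripleCost_swap12, ← this]
      ring
  · refine lintegral_congr_ae ?_
    filter_upwards [hBae] with b hb
    have := w_eq D i hb
    rw [tripleCost_swap12, tripleCost_swap23, ← this]
    ring

include hm in
theorem I_lt_top : 3 * ∫⁻ x, w D x ∂(mu D m) < ⊤ := by
  refine ENNReal.mul_lt_top (by simp) ?_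
  calc ∫⁻ x, w D x ∂(mu D m) ≤ ∫⁻ x, ENNReal.ofReal (2 * D.C) ∂(mu D m) := by
        refine lintegral_mono fun x => ENNReal.ofReal_le_ofReal ?_
        linarith [(abs_le.1 (D.uC x)).2]
    _ = ENNReal.ofReal (2 * D.C) := by rw [lintegral_const, mu_univ D m hm, mul_one]
    _ < ⊤ := ENNReal.ofReal_lt_top

include hm hB in
theorem pi0_lt_top : ∫⁻ p, tripleCost s p ∂(pi0 D m) < ⊤ := by
  have h := pi0_cost D m hm hB
  have h2 := I_lt_top D m hm
  rw [← h] at h2
  exact (ENNReal.add_lt_top.1 h2).1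

include hm hB in
theorem pi0_optimal {π : Measure (E × E × E)} (hπ : IsCoupling₃ (mu D m) π) :
    ∫⁻ p, tripleCost s p ∂(pi0 D m) ≤ ∫⁻ p, tripleCost s p ∂π := by
  have h1 := lower_bound D m hm hB hπ
  rw [← pi0_cost D m hm hB] at h1
  exact (ENNReal.add_le_add_iff_right ENNReal.ofReal_ne_top).1 h1

/-- map plan -/
theorem coupling_map {T₂ T₃ : E → E} (h2 : Measurable T₂) (h3 : Measurable T₃)
    (e2 : (mu D m).map T₂ = mu D m) (e3 : (mu D m).map T₃ = mu D m) :
    IsCoupling₃ (mu D m) ((mu D m).map fun x => (x, T₂ x, T₃ x)) := by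
  have hm0 : Measurable fun x => (x, T₂ x, T₃ x) := measurable_id.prodMk (h2.prodMk h3)
  refine ⟨?_, ?_, ?_⟩
  · rw [Measure.map_map measurable_fst hm0]
    exact Measure.map_id
  · have m2 : Measurable (fun p : E × E × E => p.2.1) := measurable_fst.comp measurable_snd
    rw [Measure.map_map m2 hm0]
    exact e2
  · have m3 : Measurable (fun p : E × E × E => p.2.2) := measurable_snd.comp measurable_snd
    rw [Measure.map_map m3 hm0]
    exact e3

include hm hB in
theorem contact_ae {T₂ T₃ : E → E} (h2 : Measurable T₂) (h3 : Measurable T₃)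
    (e2 : (mu D m).map T₂ = mu D m) (e3 : (mu D m).map T₃ = mu D m)
    (hle : ∫⁻ x, tripleCost s (x, T₂ x, T₃ x) ∂(mu D m) ≤ ∫⁻ p, tripleCost s p ∂(pi0 D m)) :
    ∀ᵐ x ∂(mu D m), Contact D.P D.ε x (T₂ x) (T₃ x) := by
  have hm0 : Measurable fun x => (x, T₂ x, T₃ x) := measurable_id.prodMk (h2.prodMk h3)
  have hc := coupling_map D m h2 h3 e2 e3
  have hw := w_meas D
  have hS : ∀ᵐ x ∂(mu D m), x ∈ Sset D ∧ T₂ x ∈ Sset D ∧ T₃ x ∈ Sset D :=
    ae_of_ae_map hm0.aemeasurable (coupling_S D m hB hc)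
  have hle2 : (fun x => w D x + w D (T₂ x) + w D (T₃ x)) ≤ᵐ[mu D m]
      fun x => tripleCost s (x, T₂ x, T₃ x) + ENNReal.ofReal (3 * D.C) := by
    filter_upwards [hS] with x hx
    exact w_le D hx.1 hx.2.1 hx.2.2
  have hi1 : ∫⁻ x, (w D x + w D (T₂ x) + w D (T₃ x)) ∂(mu D m) = 3 * ∫⁻ x, w D x ∂(mu D m) := by
    rw [← lintegral_w_coupling D m hc, lintegral_map _ hm0]
    exact ((hw.comp measurable_fst).add (hw.comp (measurable_fst.comp measurable_snd))).add
      (hw.comp (measurable_snd.comp measurable_snd))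
  have hcm : Measurable (fun x => tripleCost s (x, T₂ x, T₃ x)) := measurable_tripleCost.comp hm0
  have hi2 : ∫⁻ x, (tripleCost s (x, T₂ x, T₃ x) + ENNReal.ofReal (3 * D.C)) ∂(mu D m) ≤
      ∫⁻ x, (w D x + w D (T₂ x) + w D (T₃ x)) ∂(mu D m) := by
    rw [hi1, ← pi0_cost D m hm hB, lintegral_add_right _ measurable_const, lintegral_const, mu_univ D m hm, mul_one]
    gcongr
  have heq := ae_eq_of_ae_le_of_lintegral_le hle2 (by rw [hi1]; exact (I_lt_top D m hm).ne)
    (hcm.add_const _).aemeasurable hi2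
  filter_upwards [heq, hS] with x h1 h4
  exact contact_of_eq D h4.1 h4.2.1 h4.2.2 h1

end Crest.Agent.H3.MM
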