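import Crest.Agent.H3.MM.Impl

open Set Filter Topology MeasureTheory
open scoped ContDiff RealInnerProductSpace

namespace Crest.Agent.H3.MM

variable {E : Type*} [NormedAddCommGroup E] [InnerProductSpace ℝ E]

/-- real valued three body cost -/
noncomputable def cR (s : ℝ) (x y z : E) : ℝ := phi s (x - y) + phi s (x - z) + phi s (y - z)

noncomputable def MM (s : ℝ) : ℝ := 4 + 2 ^ (-s)

/-- potential on the central cluster -/
noncomputable def U0 (s : ℝ) (x : E) : ℝ := MM s - Kc s / 2 * ‖x‖ ^ 2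

/-- potential on the outer cluster near `a` -/
noncomputable def Ua (s : ℝ) (a y : E) : ℝ := -1 - xi s * ⟪a, y - a⟫ - Kc s / 2 * ‖y - a‖ ^ 2

theorem Ph_eq (s : ℝ) (a x y z : E) :
    Ph s a x y z = cR s x y z - U0 s x - Ua s a y + (MM s - 1) := by
  simp only [Ph, cR, U0, Ua]; ring

theorem Ph_base (s : ℝ) {a : E} (ha : ‖a‖ = 1) : Ph s a 0 a (-a) = MM s - 2 := by
  simp only [Ph, phi, MM, zero_sub, norm_neg, sub_neg_eq_add, zero_add, ha, norm_zero, sub_self,
    inner_zero_right, Real.one_rpow]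
  rw [← two_smul ℝ a, norm_smul, ha]
  norm_num
  ring

/-- The chart properties at a point. -/
def ChartAt (f fi : E → E) (x : E) : Prop :=
  ContDiffAt ℝ ∞ f x ∧ fi (f x) = x ∧ ContDiffAt ℝ ∞ fi (f x) ∧
      (fderiv ℝ f x).det ≠ 0 ∧ ∀ᶠ y in 𝓝 (f x), f (fi y) = y

theorem eventually_ball {p : E → Prop} {x₀ : E} (h : ∀ᶠ x in 𝓝 x₀, p x) :
    ∀ᶠ ε in 𝓝[>] (0:ℝ), ∀ x ∈ Metric.closedBall x₀ ε, p x := by
  obtain ⟨r, hr, hb⟩ := Metric.eventually_nhds_iff.1 h
  filter_upwards [Ioo_mem_nhdsGT hr] with ε hε x hx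
  exact hb (lt_of_le_of_lt (Metric.mem_closedBall.1 hx) hε.2)

theorem cont_Ph (s : ℝ) (a : E) {f g : E → E} {b : E} (hf : ContinuousAt f b) (hg : ContinuousAt g b)
    (h1 : b - f b ≠ 0) (h2 : b - g b ≠ 0) (h3 : f b - g b ≠ 0) :
    ContinuousAt (fun b => Ph s a b (f b) (g b)) b := by
  have c1 : ContinuousAt (fun b => phi s (b - f b)) b :=
    ContinuousAt.comp (g := phi s) (f := fun b => b - f b)
      (continuousAt_phi s h1) (continuousAt_id.sub hf)
  have c2 : ContinuousAt (fun b => phi s (b - g b)) b :=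
    ContinuousAt.comp (g := phi s) (f := fun b => b - g b)
      (continuousAt_phi s h2) (continuousAt_id.sub hg)
  have c3 : ContinuousAt (fun b => phi s (f b - g b)) b :=
    ContinuousAt.comp (g := phi s) (f := fun b => f b - g b)
      (continuousAt_phi s h3) (hf.sub hg)
  unfold Ph
  refine ContinuousAt.add (ContinuousAt.add (ContinuousAt.add (ContinuousAt.add (c1) c2) c3) ?_) ?_ |>.add ?_
  · fun_prop
  · fun_prop
  · fun_prop

variable [FiniteDimensional ℝ E] [MeasurableSpace E] [BorelSpace E]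

theorem exists_measurable_mod {f : E → E} (hf : ∀ᶠ x in 𝓝 (0:E), ContinuousAt f x) :
    ∃ f' : E → E, Measurable f' ∧ f' =ᶠ[𝓝 0] f := by
  classical
  obtain ⟨r, hr, hb⟩ := Metric.eventually_nhds_iff.1 hf
  refine ⟨(Metric.ball (0:E) r).piecewise f (fun _ => 0), ?_, ?_⟩
  · refine ContinuousOn.measurable_piecewise (fun x hx => (hb hx).continuousWithinAt)
      continuousOn_const Metric.isOpen_ball.measurableSet
  · filter_upwards [Metric.ball_mem_nhds (0:E) hr] with x hx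
    exact piecewise_eq_of_mem _ _ _ hx

theorem pack1 {s : ℝ} (hs : 0 < s) {a : E} (ha : ‖a‖ = 1) {δ : ℝ} (hδ : 0 < δ) :
    ∃ f g fi gi : E → E, ∃ Wg : E → ℝ, Measurable f ∧ Measurable g ∧
    ∀ᶠ η in 𝓝[>] (0:ℝ), ContinuousOn Wg (Metric.closedBall (-a) η) ∧
      (∀ y ∈ Metric.closedBall a η, Ua s a y ≤ -1 + δ ∧ -2 ≤ Ua s a y) ∧
      (∀ y ∈ Metric.closedBall (-a) η, Wg y ≤ -1 + δ ∧ -2 ≤ Wg y) ∧
    ∀ᶠ ε in 𝓝[>] (0:ℝ),
      (∀ x ∈ Metric.closedBall 0 ε, ChartAt f fi x) ∧ (∀ x ∈ Metric.closedBall 0 ε, ChartAt g gi x) ∧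
      (∀ x ∈ Metric.closedBall 0 ε, ‖f x - a‖ ≤ η ∧ ‖g x + a‖ ≤ η) ∧
      (∀ b ∈ Metric.closedBall 0 ε, U0 s b + Ua s a (f b) + Wg (g b) = cR s b (f b) (g b)) ∧
      (∀ b ∈ Metric.closedBall (0:E) ε, ∀ x y : E, ‖x‖ ≤ η → ‖y - a‖ ≤ η →
        U0 s x + Ua s a y + Wg (g b) ≤ cR s x y (g b) ∧
        (U0 s x + Ua s a y + Wg (g b) = cR s x y (g b) → x = b ∧ y = f b)) := by
  obtain ⟨f₀, g₀, hf₀, hg₀, hf00, hg00, heq, ⟨f', hf'⟩, ⟨g', hg'⟩⟩ := exists_fg hs ha
  obtain ⟨f, hfm, hff⟩ := exists_measurable_mod (f := f₀)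
    ((hf₀.eventually (by simp)).mono fun x hx => hx.continuousAt)
  obtain ⟨g, hgm, hgg⟩ := exists_measurable_mod (f := g₀)
    ((hg₀.eventually (by simp)).mono fun x hx => hx.continuousAt)
  have hf : ContDiffAt ℝ ω f 0 := hf₀.congr_of_eventuallyEq hff
  have hg : ContDiffAt ℝ ω g 0 := hg₀.congr_of_eventuallyEq hgg
  have hf0 : f 0 = a := by rw [hff.eq_of_nhds, hf00]
  have hg0 : g 0 = -a := by rw [hgg.eq_of_nhds, hg00]
  have hf1 : HasFDerivAt f (f' : E →L[ℝ] E) 0 := hf'.congr_of_eventuallyEq hff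
  have hg1 : HasFDerivAt g (g' : E →L[ℝ] E) 0 := hg'.congr_of_eventuallyEq hgg
  obtain ⟨fi, hfi⟩ := exists_chart hf f' hf1
  obtain ⟨gi, hgi⟩ := exists_chart hg g' hg1
  have hcrit : ∀ᶠ x in 𝓝 (0:E), gX s x (f x) (g x) = 0 ∧ gY s a x (f x) (g x) = 0 := by
    filter_upwards [heq, hff, hgg] with x h1 h2 h3
    rw [h2, h3]; exact h1
  have ha0 : a ≠ 0 := by rw [← norm_pos_iff, ha]; norm_num
  -- continuity of the potential
  let V : E → ℝ := fun b => Ph s a b (f b) (g b) - (MM s - 1)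
  have ha2 : (2:ℝ) • a ≠ 0 := smul_ne_zero two_ne_zero ha0
  have hfc : ∀ᶠ b in 𝓝 (0:E), ContinuousAt f b := (hf.eventually (by simp)).mono fun x hx => hx.continuousAt
  have hgc : ∀ᶠ b in 𝓝 (0:E), ContinuousAt g b := (hg.eventually (by simp)).mono fun x hx => hx.continuousAt
  have hVc : ∀ᶠ b in 𝓝 (0:E), ContinuousAt V b := by
    have n1 : ∀ᶠ b in 𝓝 (0:E), b - f b ≠ 0 :=
      (continuousAt_id.sub hf.continuousAt).eventually_ne (by simp [hf0, ha0])
    have n2 : ∀ᶠ b in 𝓝 (0:E), b - g b ≠ 0 :=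
      (continuousAt_id.sub hg.continuousAt).eventually_ne (by simp [hg0, ha0])
    have n3 : ∀ᶠ b in 𝓝 (0:E), f b - g b ≠ 0 :=
      (hf.continuousAt.sub hg.continuousAt).eventually_ne (by
        show f 0 - g 0 ≠ 0
        rw [hf0, hg0, sub_neg_eq_add, ← two_smul ℝ a]; exact ha2)
    filter_upwards [hfc, hgc, n1, n2, n3] with b h1 h2 h3 h4 h5
    exact (cont_Ph s a h1 h2 h3 h4 h5).sub continuousAt_const
  have hch := hgi.self_of_nhds
  have hgi0 : gi (-a) = 0 := by rw [← hg0]; exact hch.2.1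
  have hgic : ContDiffAt ℝ ∞ gi (-a) := by rw [← hg0]; exact hch.2.2.1
  have hWc : ∀ᶠ z in 𝓝 (-a), ContinuousAt (fun z => V (gi z)) z := by
    have h1 : ∀ᶠ z in 𝓝 (-a), ContinuousAt gi z :=
      ((hgic.of_le (m := 1) (by norm_num)).eventually (by simp)).mono fun x hx => hx.continuousAt
    have h2 : ∀ᶠ z in 𝓝 (-a), ContinuousAt V (gi z) := by
      have : Tendsto gi (𝓝 (-a)) (𝓝 0) := by
        have := hgic.continuousAt.tendsto
        rwa [hgi0] at this
      exact this.eventually hVc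
    filter_upwards [h1, h2] with z h3 h4
    exact ContinuousAt.comp (g := V) (f := gi) h4 h3
  have hV0 : V 0 = -1 := by
    simp only [V, hf0, hg0, Ph_base s ha]; ring
  have hWb : ∀ᶠ z in 𝓝 (-a), V (gi z) ≤ -1 + δ ∧ -2 ≤ V (gi z) := by
    have hc := hWc.self_of_nhds
    have hv : V (gi (-a)) = -1 := by rw [hgi0, hV0]
    have h1 := hc.eventually (gt_mem_nhds (show V (gi (-a)) < -1 + δ by rw [hv]; linarith))
    have h2 := hc.eventually (lt_mem_nhds (show -2 < V (gi (-a)) by rw [hv]; norm_num))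
    filter_upwards [h1, h2] with z h3 h4
    exact ⟨h3.le, h4.le⟩
  have hUb : ∀ᶠ y in 𝓝 a, Ua s a y ≤ -1 + δ ∧ -2 ≤ Ua s a y := by
    have hc : ContinuousAt (Ua s a) a := by
      unfold Ua; fun_prop
    have hv : Ua s a a = -1 := by simp [Ua]
    have h1 := hc.eventually (gt_mem_nhds (show Ua s a a < -1 + δ by rw [hv]; linarith))
    have h2 := hc.eventually (lt_mem_nhds (show -2 < Ua s a a by rw [hv]; norm_num))
    filter_upwards [h1, h2] with z h3 h4
    exact ⟨h3.le, h4.le⟩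
  refine ⟨f, g, fi, gi, fun z => V (gi z), hfm, hgm, ?_⟩
  filter_upwards [eventually_ball hWc, eventually_ball hUb, eventually_ball hWb,
    Ioo_mem_nhdsGT (show (0:ℝ) < 1 / 8 by norm_num)] with η e1 e2 e3 e4
  refine ⟨fun z hz => (e1 z hz).continuousWithinAt, e2, e3, ?_⟩
  have hfn : ∀ᶠ b in 𝓝 (0:E), ‖f b - a‖ ≤ η := by
    have : Tendsto f (𝓝 0) (𝓝 a) := by
      have := hf.continuousAt.tendsto
      rwa [hf0] at this
    filter_upwards [this.eventually (Metric.closedBall_mem_nhds a e4.1)] with b hb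
    rwa [dist_eq_norm] at hb
  have hgn : ∀ᶠ b in 𝓝 (0:E), ‖g b + a‖ ≤ η := by
    have : Tendsto g (𝓝 0) (𝓝 (-a)) := by
      have := hg.continuousAt.tendsto
      rwa [hg0] at this
    filter_upwards [this.eventually (Metric.closedBall_mem_nhds (-a) e4.1)] with b hb
    rwa [dist_eq_norm, sub_neg_eq_add] at hb
  filter_upwards [eventually_ball hfi, eventually_ball hgi, eventually_ball (hfn.and hgn),
    eventually_ball hcrit, Ioo_mem_nhdsGT (show (0:ℝ) < 1 / 8 by norm_num)] with ε d1 d2 d3 d4 d5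
  refine ⟨d1, d2, d3, ?_, ?_⟩
  · intro b hb
    have hgb : gi (g b) = b := (d2 b hb).2.1
    have : Ph s a b (f b) (g b) = cR s b (f b) (g b) - U0 s b - Ua s a (f b) + (MM s - 1) := Ph_eq _ _ _ _ _
    simp only [V, hgb, this]
    ring
  · intro b hb x y hx hy
    have hgb : gi (g b) = b := (d2 b hb).2.1
    have q1 := Ph_eq s a x y (g b)
    have hbn : ‖b‖ ≤ 1 / 8 := by
      have := mem_closedBall_zero_iff.1 hb
      linarith [d5.2]
    by_cases hne : (x, y) = (b, f b)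
    · rw [Prod.mk.injEq] at hne
      refine ⟨?_, fun _ => hne⟩
      simp only [V, hgb]
      rw [hne.1, hne.2] at q1 ⊢
      linarith
    · have := strict_min hs ha hbn ((d3 b hb).1.trans e4.2.le) (hx.trans e4.2.le) (hy.trans e4.2.le)
        ((d3 b hb).2.trans e4.2.le) (d4 b hb).1 (d4 b hb).2 hne
      simp only [V, hgb]
      refine ⟨by linarith, fun h => ?_⟩
      exfalso
      linarith

end Crest.Agent.H3.MM
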